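import Vale.Agent.P287.R2.H992.Through
import Vale.Agent.P287.R2.H248.Polar

/-!
P287 (helper992): a cubic fourfold with an Eckardt point and at least 28 planes contains two
disjoint planes.
-/

namespace Vale.Agent.P287.R2.H992

open Module Submodule
open Vale.Agent.P287.R2.H248

/-- At most 27 planes pass through an Eckardt point. -/
theorem through_eckardt_le_27 {F : MvPolynomial (Fin 6) ℂ} (hF : IsCubicFourfold F) {p : A6}
    (hp : IsEckardt F p) (s : Finset (Submodule ℂ A6)) (hs : ∀ P ∈ s, IsPlaneIn F P ∧ p ∈ P) :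
    s.card ≤ 27 :=
  planes_through_le_27 (pol_smooth hF) (by simp) (pol_eckardt hF.1 hp) s fun P hP =>
    ⟨(hs P hP).1.1, (pol_iso hF.1).mpr (hs P hP).1.2, (hs P hP).2⟩

/-- **An Eckardt point and 28 planes: two disjoint planes.** -/
theorem eckardt_28 {F : MvPolynomial (Fin 6) ℂ} (hF : IsCubicFourfold F) {p : A6}
    (hp : IsEckardt F p) (s : Finset (Submodule ℂ A6)) (hs : 28 ≤ s.card)
    (hsF : ∀ P ∈ s, IsPlaneIn F P) : ∃ P Q, IsPlaneIn F P ∧ IsPlaneIn F Q ∧ Disjoint P Q := by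
  obtain ⟨P, hPs, -, Q, hQ3, hQI, -, hd⟩ := exists_disjoint_of_eckardt_28 (pol_smooth hF)
    (by simp) (pol_eckardt hF.1 hp) s
    (fun P hP => ⟨(hsF P hP).1, (pol_iso hF.1).mpr (hsF P hP).2⟩) hs
  exact ⟨P, Q, hsF P hPs, ⟨hQ3, (pol_iso hF.1).mp hQI⟩, hd⟩

end Vale.Agent.P287.R2.H992
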