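import Vale.Agent.P287.R2.H248.Lines

/-!
P287: a smooth cubic form has no linear syzygy, that is, no nonzero linear vector field kills it.
-/

namespace Vale.Agent.P287.R2.H992

open Module Vale.Agent.P287.R2.H248

variable {V : Type*} [AddCommGroup V] [Module ℂ V] {S : Tri V} {A : V →ₗ[ℂ] V}

lemma pol_two (h : ∀ x, S.T x x (A x) = 0) (x y : V) :
    S.T x x (A y) + 2 * S.T x y (A x) = 0 := by
  have h1 := h (x + y)
  have h2 := h (x - y)
  have h4 := h y
  simp only [map_add, map_sub, LinearMap.add_apply, LinearMap.sub_apply] at h1 h2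
  rw [S.s12 y x (A x)] at h1 h2
  linear_combination (1 / 2 : ℂ) * (h1 - h2) - h4

lemma pol_three (h : ∀ x, S.T x x (A x) = 0) (x y z : V) :
    S.T (A x) y z + S.T x (A y) z + S.T x y (A z) = 0 := by
  have h1 := pol_two h (x + y) z
  have h2 := pol_two h x z
  have h3 := pol_two h y z
  simp only [map_add, LinearMap.add_apply] at h1
  rw [S.s12 y x (A z)] at h1
  have e1 : S.T (A x) y z = S.T y z (A x) := S.cyc _ _ _
  have e2 : S.T x (A y) z = S.T x z (A y) := S.s23 _ _ _
  rw [e1, e2]
  linear_combination (1 / 2 : ℂ) * (h1 - h2 - h3)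

lemma eig [FiniteDimensional ℂ V] (hS : S.Smooth) (h : ∀ x, S.T x x (A x) = 0) {μ : ℂ}
    (hμ : End.HasEigenvalue A μ) : End.HasEigenvalue A (-2 * μ) := by
  by_contra hn
  obtain ⟨v, hv⟩ := hμ.exists_hasEigenvector
  have hAv : A v = μ • v := hv.apply_eq_smul
  have hinj : Function.Injective (A - algebraMap ℂ (End ℂ V) (-2 * μ)) := by
    rw [← LinearMap.ker_eq_bot]
    by_contra hk
    apply hn
    rw [End.hasEigenvalue_iff, End.eigenspace_def]
    exact hk
  have hsur := LinearMap.injective_iff_surjective.1 hinj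
  refine hv.2 (hS v fun w => ?_)
  obtain ⟨u, rfl⟩ := hsur w
  have h1 := pol_two h v u
  have e : S.T v u v = S.T v v u := S.s23 _ _ _
  simp only [hAv, map_smul, smul_eq_mul, e] at h1
  simp only [LinearMap.sub_apply, Module.algebraMap_end_apply, map_sub, map_smul, smul_eq_mul]
  linear_combination h1

lemma eig_zero [FiniteDimensional ℂ V] (hS : S.Smooth) (h : ∀ x, S.T x x (A x) = 0) {μ : ℂ}
    (hμ : End.HasEigenvalue A μ) : μ = 0 := by
  by_contra h0
  have hall : ∀ n : ℕ, End.HasEigenvalue A ((-2) ^ n * μ) := by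
    intro n
    induction n with
    | zero => simpa using hμ
    | succ n ih =>
      have := eig hS h ih
      rwa [← mul_assoc, ← pow_succ'] at this
  have hinj : Function.Injective fun n : ℕ => (-2 : ℂ) ^ n * μ := by
    intro a b hab
    have h1 : (-2 : ℂ) ^ a = (-2) ^ b := mul_right_cancel₀ h0 hab
    have h2 : (2 : ℝ) ^ a = 2 ^ b := by
      have := congrArg norm h1
      simpa using this
    exact pow_right_injective₀ (by norm_num) (by norm_num) h2
  exact Set.infinite_of_injective_forall_mem hinj hall (End.finite_hasEigenvalue A)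

lemma nilp [FiniteDimensional ℂ V] (hS : S.Smooth) (h : ∀ x, S.T x x (A x) = 0) :
    IsNilpotent A := by
  have hroots : (minpoly ℂ A).roots = Multiset.replicate (minpoly ℂ A).roots.card 0 := by
    refine Multiset.eq_replicate_card.2 fun b hb => ?_
    exact eig_zero hS h (End.hasEigenvalue_of_isRoot (Polynomial.isRoot_of_mem_roots hb))
  have hm : (minpoly ℂ A).Monic := minpoly.monic (Algebra.IsIntegral.isIntegral A)
  have hp := (IsAlgClosed.splits (minpoly ℂ A)).eq_prod_roots_of_monic hm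
  rw [hroots] at hp
  refine ⟨(minpoly ℂ A).roots.card, ?_⟩
  have h1 := minpoly.aeval ℂ A
  rw [hp] at h1
  simpa using h1

/-- the two contractions of a bilinear form with `A` -/
noncomputable def L1 (A : V →ₗ[ℂ] V) : End ℂ (V →ₗ[ℂ] V →ₗ[ℂ] ℂ) :=
  LinearMap.lcomp ℂ (V →ₗ[ℂ] ℂ) A

noncomputable def L2 (A : V →ₗ[ℂ] V) : End ℂ (V →ₗ[ℂ] V →ₗ[ℂ] ℂ) :=
  LinearMap.compRight ℂ (LinearMap.lcomp ℂ ℂ A)

lemma L1_apply (B : V →ₗ[ℂ] V →ₗ[ℂ] ℂ) (x y : V) : L1 A B x y = B (A x) y := rfl

lemma L2_apply (B : V →ₗ[ℂ] V →ₗ[ℂ] ℂ) (x y : V) : L2 A B x y = B x (A y) := rfl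

lemma L1_pow (n : ℕ) (B : V →ₗ[ℂ] V →ₗ[ℂ] ℂ) (x y : V) :
    (L1 A ^ n) B x y = B ((A ^ n) x) y := by
  induction n generalizing x with
  | zero => rfl
  | succ n ih =>
    rw [pow_succ', Module.End.mul_apply, L1_apply, ih, pow_succ, Module.End.mul_apply]

lemma L2_pow (n : ℕ) (B : V →ₗ[ℂ] V →ₗ[ℂ] ℂ) (x y : V) :
    (L2 A ^ n) B x y = B x ((A ^ n) y) := by
  induction n generalizing y with
  | zero => rfl
  | succ n ih =>
    rw [pow_succ', Module.End.mul_apply, L2_apply, ih, pow_succ, Module.End.mul_apply]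

lemma comm : Commute (L1 A) (L2 A) := by
  apply LinearMap.ext
  intro B
  apply LinearMap.ext
  intro x
  apply LinearMap.ext
  intro y
  rfl

lemma sum_pow (h : ∀ x, S.T x x (A x) = 0) (n : ℕ) (w : V) :
    ((L1 A + L2 A) ^ n) (S.T w) = (-1 : ℂ) ^ n • S.T ((A ^ n) w) := by
  induction n generalizing w with
  | zero => simp
  | succ n ih =>
    have key : (L1 A + L2 A) (S.T w) = -S.T (A w) := by
      apply LinearMap.ext
      intro x
      apply LinearMap.ext
      intro y
      have := pol_three h w x y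
      simp only [LinearMap.add_apply, L1_apply, L2_apply, LinearMap.neg_apply]
      linear_combination this
    rw [pow_succ, Module.End.mul_apply, key, map_neg, ih, pow_succ (A : End ℂ V),
      Module.End.mul_apply, pow_succ]
    module

/-- A smooth cubic form has no linear syzygy. -/
theorem no_syz {V : Type*} [AddCommGroup V] [Module ℂ V] [FiniteDimensional ℂ V] {S : Tri V}
    (hS : S.Smooth) (A : V →ₗ[ℂ] V) (h : ∀ x, S.T x x (A x) = 0) : A = 0 := by
  classical
  by_contra hA
  obtain ⟨n, hn⟩ := nilp hS h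
  -- the nilpotency class
  have hex : ∃ n, A ^ n = 0 := ⟨n, hn⟩
  set m := Nat.find hex with hm
  have hm0 : A ^ m = 0 := Nat.find_spec hex
  have hm1 : m ≠ 0 := by
    intro h0
    rw [h0, pow_zero] at hm0
    apply hA
    apply LinearMap.ext
    intro x
    have : (1 : End ℂ V) (A x) = 0 := by rw [hm0]; rfl
    simpa using this
  obtain ⟨k, hk⟩ := Nat.exists_eq_succ_of_ne_zero hm1
  have hk0 : A ^ k ≠ 0 := Nat.find_min hex (by omega)
  have hk1 : k ≠ 0 := by
    rintro rfl
    apply hA
    rw [hk] at hm0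
    simpa using hm0
  have hzero : ∀ j, k < j → A ^ j = 0 := by
    intro j hj
    obtain ⟨i, rfl⟩ := Nat.exists_eq_add_of_le (show m ≤ j by omega)
    rw [pow_add, hm0, zero_mul]
  apply hk0
  apply LinearMap.ext
  intro x
  refine hS _ fun w => ?_
  have h1 := sum_pow h (k + k) w
  rw [hzero (k + k) (by omega), comm.add_pow] at h1
  have h2 := congrArg (fun B : V →ₗ[ℂ] V →ₗ[ℂ] ℂ => B x x) h1
  simp only [LinearMap.zero_apply, map_zero, smul_zero, LinearMap.sum_apply,
    Module.End.mul_apply] at h2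
  rw [Finset.sum_eq_single k] at h2
  · rw [L1_pow, L2_pow, Nat.add_sub_cancel, Module.End.natCast_apply, LinearMap.smul_apply,
      LinearMap.smul_apply, nsmul_eq_mul] at h2
    rw [S.cyc]
    rcases mul_eq_zero.1 h2 with h3 | h3
    · exact absurd (Nat.cast_eq_zero.1 h3) (Nat.choose_pos (by omega)).ne'
    · rw [S.cyc] at h3
      rw [← S.cyc]
      exact h3
  · intro i hi hik
    rw [L1_pow, L2_pow]
    rcases lt_or_gt_of_ne hik with hlt | hgt
    · rw [hzero (k + k - i) (by omega)]
      simp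
    · rw [hzero i hgt]
      simp
  · intro hni
    exact absurd (Finset.mem_range.2 (by omega)) hni

end Vale.Agent.P287.R2.H992
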