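import Vale.Agent.P287.R2.H992.Poly

/-!
P287 (helper992): counting the good points on the factors of the discriminant of the net.
-/

namespace Vale.Agent.P287.R2.H992

open MvPolynomial
open Vale.Agent.P287.R2.H248
open Vale.Agent.P287.R2.H622

/-- Bezout for an irreducible polynomial. -/
def BezoutStmt : Prop := ∀ f g : MvPolynomial (Fin 2) ℂ, Irreducible f → ¬ f ∣ g →
  ∀ s : Finset (Fin 2 → ℂ), (∀ x ∈ s, eval x f = 0 ∧ eval x g = 0) →
    s.card ≤ f.totalDegree * g.totalDegree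

/-- A nonconstant polynomial has infinitely many zeros. -/
def InfStmt : Prop := ∀ f : MvPolynomial (Fin 2) ℂ, 0 < f.totalDegree → ∀ N : ℕ,
  ∃ s : Finset (Fin 2 → ℂ), s.card = N ∧ ∀ x ∈ s, eval x f = 0

lemma eval_ne_of_deg {g : MvPolynomial (Fin 2) ℂ} (hg : g ≠ 0) (h : g.totalDegree = 0)
    (x : Fin 2 → ℂ) : eval x g ≠ 0 := by
  rw [totalDegree_eq_zero_iff_eq_C] at h
  rw [h, eval_C]
  intro h0
  apply hg
  rw [h, h0, C_0]

lemma isUnit_of_deg {g : MvPolynomial (Fin 2) ℂ} (hg : g ≠ 0) (h : g.totalDegree = 0) :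
    IsUnit g := by
  rw [totalDegree_eq_zero_iff_eq_C] at h
  rw [h]
  refine IsUnit.map C (isUnit_iff_ne_zero.mpr ?_)
  intro h0
  apply hg
  rw [h, h0, C_0]

lemma deg_pos {f : MvPolynomial (Fin 2) ℂ} (hf : Irreducible f) : 0 < f.totalDegree := by
  by_contra h
  exact hf.not_isUnit (isUnit_of_deg hf.ne_zero (by omega))

lemma card_split (s : Finset (Fin 2 → ℂ)) (f g h : MvPolynomial (Fin 2) ℂ) (hfg : h = f * g)
    (hs : ∀ x ∈ s, eval x h = 0) (a b : ℕ)
    (ha : ∀ t ⊆ s, (∀ x ∈ t, eval x f = 0) → t.card ≤ a)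
    (hb : ∀ t ⊆ s, (∀ x ∈ t, eval x g = 0) → t.card ≤ b) : s.card ≤ a + b := by
  classical
  have h1 := ha (s.filter fun x => eval x f = 0) (Finset.filter_subset _ _)
    fun x hx => (Finset.mem_filter.mp hx).2
  have h2 := hb (s.filter fun x => eval x g = 0) (Finset.filter_subset _ _)
    fun x hx => (Finset.mem_filter.mp hx).2
  have h3 : s ⊆ (s.filter fun x => eval x f = 0) ∪ (s.filter fun x => eval x g = 0) := by
    intro x hx
    have h4 := hs x hx
    rw [hfg, map_mul, mul_eq_zero] at h4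
    rcases h4 with h4 | h4
    · exact Finset.mem_union_left _ (Finset.mem_filter.mpr ⟨hx, h4⟩)
    · exact Finset.mem_union_right _ (Finset.mem_filter.mpr ⟨hx, h4⟩)
  have h5 := Finset.card_le_card h3
  have h6 := Finset.card_union_le (s.filter fun x => eval x f = 0) (s.filter fun x => eval x g = 0)
  omega

lemma exists_factor {h : MvPolynomial (Fin 2) ℂ} (h0 : h ≠ 0) (hd : 0 < h.totalDegree) :
    ∃ f g, Irreducible f ∧ g ≠ 0 ∧ h = f * g ∧ h.totalDegree = f.totalDegree + g.totalDegree := by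
  have hu : ¬ IsUnit h := by
    intro hu
    have h1 := isUnit_iff_totalDegree_of_isReduced.mp hu
    omega
  obtain ⟨f, hf, g, hg⟩ := WfDvdMonoid.exists_irreducible_factor hu h0
  have hg0 : g ≠ 0 := by
    rintro rfl
    exact h0 (by rw [hg, mul_zero])
  exact ⟨f, g, hf, hg0, hg, by rw [hg, totalDegree_mul_of_isDomain hf.ne_zero hg0]⟩

variable {V : Type*} [AddCommGroup V] [Module ℂ V] {S : Tri V} {e k : Fin 3 → V}

/-- The good points of the chart. -/
def G (S : Tri V) (e k : Fin 3 → V) (x : Fin 2 → ℂ) : Prop := Min3 (MM S e (kk k x))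

lemma irr_le (hB : BezoutStmt) (hI : InfStmt)
    (h20 : ∀ s : Finset (Fin 2 → ℂ), (∀ x ∈ s, G S e k x) → s.card ≤ 20)
    {f : MvPolynomial (Fin 2) ℂ} (hf : Irreducible f) (s : Finset (Fin 2 → ℂ))
    (hs : ∀ x ∈ s, G S e k x) (hsf : ∀ x ∈ s, eval x f = 0) : s.card ≤ 5 * f.totalDegree := by
  by_cases h : ∀ a b, f ∣ mnr S e k a b
  · exfalso
    obtain ⟨t, ht, htf⟩ := hI f (deg_pos hf) 21
    have := h20 t (fun x hx a b => by
      obtain ⟨c, hc⟩ := h a b
      rw [← eval_mnr, hc, map_mul, htf x hx, zero_mul])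
    omega
  · push Not at h
    obtain ⟨a, b, hab⟩ := h
    have h1 := hB f _ hf hab s (fun x hx => ⟨hsf x hx, by rw [eval_mnr]; exact hs x hx a b⟩)
    have h2 := deg_mnr (S := S) e k a b
    calc s.card ≤ f.totalDegree * (mnr S e k a b).totalDegree := h1
      _ ≤ f.totalDegree * 5 := Nat.mul_le_mul_left _ h2
      _ = _ := by ring

lemma quad_le (hB : BezoutStmt) (hI : InfStmt)
    (h20 : ∀ s : Finset (Fin 2 → ℂ), (∀ x ∈ s, G S e k x) → s.card ≤ 20)
    (hline : ∀ l : MvPolynomial (Fin 2) ℂ, l ≠ 0 → l.totalDegree ≤ 1 →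
      ∀ s : Finset (Fin 2 → ℂ), (∀ x ∈ s, G S e k x) → (∀ x ∈ s, eval x l = 0) → s.card ≤ 3)
    {h : MvPolynomial (Fin 2) ℂ} (h0 : h ≠ 0) (hd : h.totalDegree ≤ 2) (s : Finset (Fin 2 → ℂ))
    (hs : ∀ x ∈ s, G S e k x) (hsf : ∀ x ∈ s, eval x h = 0) : s.card ≤ 10 := by
  by_cases hd1 : h.totalDegree ≤ 1
  · have := hline h h0 hd1 s hs hsf
    omega
  obtain ⟨f, g, hf, hg0, hfg, hdeg⟩ := exists_factor h0 (by omega)
  have hf1 := deg_pos hf
  by_cases hf2 : f.totalDegree = 1
  · have h1 := card_split s f g h hfg hsf 3 3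
      (fun t ht htf => hline f hf.ne_zero (by omega) t (fun x hx => hs x (ht hx)) htf)
      (fun t ht htf => hline g hg0 (by omega) t (fun x hx => hs x (ht hx)) htf)
    omega
  · have h1 := card_split s f g h hfg hsf 10 0
      (fun t ht htf => by
        have h2 := irr_le hB hI h20 hf t (fun x hx => hs x (ht hx)) htf
        have h3 : f.totalDegree = 2 := by omega
        omega)
      (fun t ht htf => by
        rw [Nat.le_zero, Finset.card_eq_zero, Finset.eq_empty_iff_forall_notMem]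
        intro x hx
        exact eval_ne_of_deg hg0 (by omega) x (htf x hx))
    omega

lemma cubic_le (hB : BezoutStmt) (hI : InfStmt)
    (h20 : ∀ s : Finset (Fin 2 → ℂ), (∀ x ∈ s, G S e k x) → s.card ≤ 20)
    (hline : ∀ l : MvPolynomial (Fin 2) ℂ, l ≠ 0 → l.totalDegree ≤ 1 →
      ∀ s : Finset (Fin 2 → ℂ), (∀ x ∈ s, G S e k x) → (∀ x ∈ s, eval x l = 0) → s.card ≤ 3)
    {h : MvPolynomial (Fin 2) ℂ} (h0 : h ≠ 0) (hd : h.totalDegree ≤ 3)
    (s : Finset (Fin 2 → ℂ)) (hs : ∀ x ∈ s, G S e k x) (hsf : ∀ x ∈ s, eval x h = 0)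
    (hirr : Irreducible h → h.totalDegree = 3 → s.card ≤ 13) : s.card ≤ 13 := by
  by_cases hd1 : h.totalDegree ≤ 2
  · have := quad_le hB hI h20 hline h0 hd1 s hs hsf
    omega
  obtain ⟨f, g, hf, hg0, hfg, hdeg⟩ := exists_factor h0 (by omega)
  have hf1 := deg_pos hf
  by_cases hf2 : f.totalDegree = 1
  · exact card_split s f g h hfg hsf 3 10
      (fun t ht htf => hline f hf.ne_zero (by omega) t (fun x hx => hs x (ht hx)) htf)
      (fun t ht htf => quad_le hB hI h20 hline hg0 (by omega) t (fun x hx => hs x (ht hx)) htf)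
  by_cases hf3 : f.totalDegree = 2
  · exact card_split s f g h hfg hsf 10 3
      (fun t ht htf => by
        have h2 := irr_le hB hI h20 hf t (fun x hx => hs x (ht hx)) htf
        omega)
      (fun t ht htf => hline g hg0 (by omega) t (fun x hx => hs x (ht hx)) htf)
  · apply hirr
    · have hgu : IsUnit g := isUnit_of_deg hg0 (by omega)
      rw [hfg]
      exact (irreducible_mul_isUnit hgu).mpr hf
    · omega

end Vale.Agent.P287.R2.H992
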