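import Vale.Agent.P287.R2.H992.Cases

/-!
P287 (helper992): the case of an irreducible cubic.
-/

namespace Vale.Agent.P287.R2.H992

open MvPolynomial
open Vale.Agent.P287.R2.H248
open Vale.Agent.P287.R2.H622

variable {V : Type*} [AddCommGroup V] [Module ℂ V] {S : Tri V} {e k : Fin 3 → V}

/-- the determinant of the net -/
noncomputable def Gam (S : Tri V) (e k : Fin 3 → V) : MvPolynomial (Fin 2) ℂ := (qp S e k).det

lemma kk_line (k : Fin 3 → V) (x y : Fin 2 → ℂ) (t : ℂ) :
    kk k (x + t • (y - x)) = (1 - t) • kk k x + t • kk k y := by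
  simp only [kk, Fin.sum_univ_three, kv, Matrix.cons_val_zero, Matrix.cons_val_one,
    Matrix.cons_val, Pi.add_apply, Pi.smul_apply, Pi.sub_apply, smul_eq_mul]
  module

lemma eval_Gam (x : Fin 2 → ℂ) :
    eval x (Gam S e k) = (Matrix.of fun i j => S.T (e i) (e j) (kk k x)).det := by
  rw [Gam, RingHom.map_det]
  congr 1
  ext i j
  exact eval_qp e k x i j

/-- the index map with last column in position `j` -/
def gj (j : Fin 3) : Fin 3 → Fin 4 := fun c => if c = j then 3 else Fin.castSucc c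

lemma mnr_gj (j : Fin 3) : mnr S e k Fin.castSucc (gj j) =
    C 108 * Matrix.cramer (qp S e k) (tp S e k) j := by
  rw [Matrix.cramer_apply, mnr, Matrix.det_fin_three, Matrix.det_fin_three]
  have h108 : (C 108 : MvPolynomial (Fin 2) ℂ) = C 6 * C 6 * C 3 := by
    rw [← C_mul, ← C_mul]; norm_num
  rw [h108]
  fin_cases j <;>
    simp [PM, gj] <;> ring

lemma mnr_three : mnr S e k Fin.castSucc Fin.castSucc = C 216 * Gam S e k := by
  rw [Gam, mnr, Matrix.det_fin_three, Matrix.det_fin_three]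
  have h216 : (C 216 : MvPolynomial (Fin 2) ℂ) = C 6 * C 6 * C 6 := by
    rw [← C_mul, ← C_mul]; norm_num
  rw [h216]
  simp [PM]
  ring

lemma good_Gam {x : Fin 2 → ℂ} (hx : G S e k x) : eval x (Gam S e k) = 0 := by
  have h1 := hx Fin.castSucc Fin.castSucc
  rw [← eval_mnr, mnr_three, map_mul, eval_C] at h1
  exact (mul_eq_zero.mp h1).resolve_left (by norm_num)

lemma deg_Gam : (Gam S e k).totalDegree ≤ 3 := by
  have h1 := deg_mnr' (S := S) e k Fin.castSucc Fin.castSucc
  have h2 : (C 216 * Gam S e k).totalDegree = (Gam S e k).totalDegree := by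
    by_cases h0 : Gam S e k = 0
    · rw [h0, mul_zero]
    · rw [totalDegree_mul_of_isDomain _ h0, totalDegree_C, zero_add]
      intro h
      rw [← C_0] at h
      have := C_injective _ _ h
      norm_num at this
  rw [mnr_three, h2] at h1
  have h3 : ∀ i : Fin 3, wt (Fin.castSucc i) = 1 := by decide
  rw [h3, h3, h3] at h1
  omega

lemma det_add_small (A B : Matrix (Fin 3) (Fin 3) ℂ)
    (hA : ∀ i i' j j', A i j * A i' j' = A i j' * A i' j)
    (hB : ∀ i i' j j', B i j * B i' j' = B i j' * B i' j) (s t : ℂ) :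
    (s • A + t • B).det = 0 := by
  have a1 := hA 1 2 1 2
  have a2 := hA 1 2 0 2
  have a3 := hA 1 2 0 1
  have a4 := hA 0 2 1 2
  have a5 := hA 0 2 0 2
  have a6 := hA 0 2 0 1
  have a7 := hA 0 1 1 2
  have a8 := hA 0 1 0 2
  have a9 := hA 0 1 0 1
  have b1 := hB 1 2 1 2
  have b2 := hB 1 2 0 2
  have b3 := hB 1 2 0 1
  have b4 := hB 0 2 1 2
  have b5 := hB 0 2 0 2
  have b6 := hB 0 2 0 1
  have b7 := hB 0 1 1 2
  have b8 := hB 0 1 0 2
  have b9 := hB 0 1 0 1
  rw [Matrix.det_fin_three]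
  simp only [Matrix.add_apply, Matrix.smul_apply, smul_eq_mul]
  linear_combination
    s ^ 3 * (A 0 0 * a1 - A 0 1 * a2 + A 0 2 * a3) +
    t ^ 3 * (B 0 0 * b1 - B 0 1 * b2 + B 0 2 * b3) +
    s ^ 2 * t * (B 0 0 * a1 - B 0 1 * a2 + B 0 2 * a3 - B 1 0 * a4 + B 1 1 * a5 - B 1 2 * a6
      + B 2 0 * a7 - B 2 1 * a8 + B 2 2 * a9) +
    s * t ^ 2 * (A 0 0 * b1 - A 0 1 * b2 + A 0 2 * b3 - A 1 0 * b4 + A 1 1 * b5 - A 1 2 * b6
      + A 2 0 * b7 - A 2 1 * b8 + A 2 2 * b9)

/-- the line through two points -/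
noncomputable def lin (x y : Fin 2 → ℂ) : MvPolynomial (Fin 2) ℂ :=
  C (y 1 - x 1) * (X 0 - C (x 0)) - C (y 0 - x 0) * (X 1 - C (x 1))

lemma lin_eval (x y : Fin 2 → ℂ) (t : ℂ) : eval (x + t • (y - x)) (lin x y) = 0 := by
  simp [lin]
  ring

lemma lin_deg (x y : Fin 2 → ℂ) : (lin x y).totalDegree ≤ 1 := by
  have h1 : ∀ (c a : ℂ) (i : Fin 2),
      (C c * (X i - C a) : MvPolynomial (Fin 2) ℂ).totalDegree ≤ 1 := by
    intro c a i
    refine (totalDegree_mul _ _).trans ?_
    rw [totalDegree_C, zero_add]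
    refine (totalDegree_sub _ _).trans ?_
    rw [totalDegree_X, totalDegree_C]
    norm_num
  refine (totalDegree_sub _ _).trans ?_
  exact max_le (h1 _ _ _) (h1 _ _ _)

lemma lin_ne {x y : Fin 2 → ℂ} (hxy : x ≠ y) : lin x y ≠ 0 := by
  intro h
  apply hxy
  have h1 : ∀ z : Fin 2 → ℂ, eval z (lin x y) = 0 := by
    intro z
    rw [h, map_zero]
  have h2 := h1 ![x 0 + 1, x 1]
  have h3 := h1 ![x 0, x 1 + 1]
  simp [lin] at h2 h3
  funext i
  fin_cases i
  · exact (sub_eq_zero.mp h3 : x 0 = y 0)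
  · exact (sub_eq_zero.mp h2 : y 1 = x 1).symm

/-- at most one point of an irreducible cubic has rank at most one -/
lemma rank_one_le (hB : BezoutStmt) (hG : Irreducible (Gam S e k))
    (hdeg : (Gam S e k).totalDegree = 3) {x y : Fin 2 → ℂ} (hxy : x ≠ y)
    (hx : ∀ i i' j j', S.T (e i) (e j) (kk k x) * S.T (e i') (e j') (kk k x) =
      S.T (e i) (e j') (kk k x) * S.T (e i') (e j) (kk k x))
    (hy : ∀ i i' j j', S.T (e i) (e j) (kk k y) * S.T (e i') (e j') (kk k y) =
      S.T (e i) (e j') (kk k y) * S.T (e i') (e j) (kk k y)) : False := by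
  classical
  have hnd : ¬ Gam S e k ∣ lin x y := by
    rintro ⟨c, hc⟩
    have hc0 : c ≠ 0 := by
      rintro rfl
      exact lin_ne hxy (by rw [hc, mul_zero])
    have h1 := lin_deg x y
    rw [hc, totalDegree_mul_of_isDomain hG.ne_zero hc0] at h1
    omega
  have hzero : ∀ t : ℂ, eval (x + t • (y - x)) (Gam S e k) = 0 := by
    intro t
    rw [eval_Gam, kk_line]
    have := det_add_small (Matrix.of fun i j => S.T (e i) (e j) (kk k x))
      (Matrix.of fun i j => S.T (e i) (e j) (kk k y)) hx hy (1 - t) t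
    rw [← this]
    congr 1
    ext i j
    simp
  let φ : ℂ → (Fin 2 → ℂ) := fun t => x + t • (y - x)
  have hφ : Function.Injective φ := by
    intro s t hst
    have h1 : (s - t) • (y - x) = 0 := by
      have h2 : x + s • (y - x) = x + t • (y - x) := hst
      rw [sub_smul, sub_eq_zero]
      exact add_left_cancel h2
    rcases smul_eq_zero.mp h1 with h2 | h2
    · exact sub_eq_zero.mp h2
    · exact absurd (sub_eq_zero.mp h2).symm hxy
  let T : Finset ℂ := {0, 1, 2, 3}
  have hT : T.card = 4 := by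
    simp only [T]
    rw [Finset.card_insert_of_notMem, Finset.card_insert_of_notMem,
      Finset.card_insert_of_notMem, Finset.card_singleton]
    all_goals norm_num
  have h1 := hB (Gam S e k) (lin x y) hG hnd (T.image φ) (by
    intro z hz
    obtain ⟨t, -, rfl⟩ := Finset.mem_image.mp hz
    exact ⟨hzero t, lin_eval x y t⟩)
  rw [Finset.card_image_of_injective _ hφ, hT, hdeg] at h1
  have h2 := lin_deg x y
  omega

end Vale.Agent.P287.R2.H992
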