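import Vale.Agent.P287.R2.H992.Cubic

/-!
P287 (helper992): an irreducible cubic contains at most thirteen good points.
-/

namespace Vale.Agent.P287.R2.H992

open MvPolynomial
open Vale.Agent.P287.R2.H248
open Vale.Agent.P287.R2.H622

variable {V : Type*} [AddCommGroup V] [Module ℂ V] {S : Tri V} {e k : Fin 3 → V}

lemma MM_cc (w : V) (i j : Fin 3) :
    MM S e w (Fin.castSucc i) (Fin.castSucc j) = 6 * S.T (e i) (e j) w := by
  fin_cases i <;> fin_cases j <;> rfl

lemma MM_cl (w : V) (i : Fin 3) : MM S e w (Fin.castSucc i) 3 = 3 * S.T (e i) w w := by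
  fin_cases i <;> rfl

lemma MM_lc (w : V) (j : Fin 3) : MM S e w 3 (Fin.castSucc j) = 3 * S.T (e j) w w := by
  fin_cases j <;> rfl

lemma MM_ll (w : V) : MM S e w 3 3 = 2 * S.T w w w := rfl

/-- the Schur complement kills the small minors -/
lemma schur {w : V} (h : Min3 (MM S e w)) (z : Fin 3 → ℂ)
    (hz : ∀ i, ∑ j, S.T (e i) (e j) w * z j = S.T (e i) w w)
    (hc : 2 * S.T w w w - 3 / 2 * ∑ j, S.T (e j) w w * z j ≠ 0) (i i' j j' : Fin 3) :
    S.T (e i) (e j) w * S.T (e i') (e j') w = S.T (e i) (e j') w * S.T (e i') (e j) w := by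
  have h1 := h ![Fin.castSucc i, Fin.castSucc i', 3] ![Fin.castSucc j, Fin.castSucc j', 3]
  have h2 : ∀ l : Fin 3, _ := fun l =>
    h ![Fin.castSucc i, Fin.castSucc i', 3] ![Fin.castSucc j, Fin.castSucc j', Fin.castSucc l]
  have a0 := h2 0
  have a1 := h2 1
  have a2 := h2 2
  rw [Matrix.det_fin_three] at h1 a0 a1 a2
  simp only [Matrix.submatrix_apply, Matrix.cons_val_zero, Matrix.cons_val_one, Matrix.cons_val,
    MM_cc, MM_cl, MM_lc, MM_ll] at h1 a0 a1 a2
  simp only [Fin.sum_univ_three] at hz hc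
  have b1 := hz i
  have b2 := hz i'
  have key : (2 * S.T w w w - 3 / 2 * (S.T (e 0) w w * z 0 + S.T (e 1) w w * z 1
      + S.T (e 2) w w * z 2)) *
      (36 * (S.T (e i) (e j) w * S.T (e i') (e j') w - S.T (e i) (e j') w * S.T (e i') (e j) w))
      = 0 := by
    rw [← b1, ← b2] at h1
    linear_combination h1 - z 0 / 2 * a0 - z 1 / 2 * a1 - z 2 / 2 * a2
  have h3 := (mul_eq_zero.mp key).resolve_left hc
  linear_combination (1 / 36 : ℂ) * h3

/-- zeros of the determinant with vanishing Schur complement are good -/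
lemma good_of_schur {w : V} (z : Fin 3 → ℂ)
    (hz : ∀ i, ∑ j, S.T (e i) (e j) w * z j = S.T (e i) w w)
    (hc : 2 * S.T w w w - 3 / 2 * ∑ j, S.T (e j) w w * z j = 0)
    (hq : (Matrix.of fun i j => S.T (e i) (e j) w).det = 0) : Min3 (MM S e w) := by
  intro f g
  let B : Matrix (Fin 3) (Fin 4) ℂ := Matrix.of fun i => ![if i = 0 then 1 else 0,
    if i = 1 then 1 else 0, if i = 2 then 1 else 0, z i / 2]
  have hM : MM S e w = B.transpose * ((6 : ℂ) • Matrix.of fun i j => S.T (e i) (e j) w) * B := by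
    have hs : ∀ i j, S.T (e i) (e j) w = S.T (e j) (e i) w := fun i j => S.s12 _ _ _
    have z0 := hz 0
    have z1 := hz 1
    have z2 := hz 2
    simp only [Fin.sum_univ_three] at z0 z1 z2 hc
    rw [hs 1 0] at z1
    rw [hs 2 0, hs 2 1] at z2
    ext i j
    rw [Matrix.mul_apply, Fin.sum_univ_three]
    simp only [Matrix.mul_apply, Fin.sum_univ_three]
    fin_cases i <;> fin_cases j <;>
      simp [MM, B, hs 1 0, hs 2 0, hs 2 1] <;>
      first
        | linear_combination (-3 : ℂ) * z0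
        | linear_combination (-3 : ℂ) * z1
        | linear_combination (-3 : ℂ) * z2
        | linear_combination hc - (3 / 2 : ℂ) * (z 0 * z0 + z 1 * z1 + z 2 * z2)
  have h1 : (MM S e w).submatrix f g = (B.submatrix id f).transpose *
      ((6 : ℂ) • Matrix.of fun i j => S.T (e i) (e j) w) * B.submatrix id g := by
    rw [hM]
    rfl
  rw [h1, Matrix.det_mul, Matrix.det_mul, Matrix.det_smul, hq]
  simp

end Vale.Agent.P287.R2.H992
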