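import Vale.Agent.P287.R2.H992.Cubic2

/-!
P287 (helper992): an irreducible cubic contains at most thirteen good points.
-/

namespace Vale.Agent.P287.R2.H992

open MvPolynomial
open Vale.Agent.P287.R2.H248
open Vale.Agent.P287.R2.H622

variable {V : Type*} [AddCommGroup V] [Module ℂ V] {S : Tri V} {e k : Fin 3 → V}

lemma deg_C_mul {c : ℂ} (hc : c ≠ 0) (p : MvPolynomial (Fin 2) ℂ) :
    (C c * p).totalDegree = p.totalDegree := by
  by_cases h0 : p = 0
  · rw [h0, mul_zero]
  · rw [totalDegree_mul_of_isDomain _ h0, totalDegree_C, zero_add]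
    intro h
    rw [← C_0] at h
    exact hc (C_injective _ _ h)

lemma deg_mnr_gj (j : Fin 3) : (mnr S e k Fin.castSucc (gj j)).totalDegree ≤ 4 := by
  have h1 := deg_mnr' (S := S) e k Fin.castSucc (gj j)
  have h2 : ∀ i : Fin 3, wt (Fin.castSucc i) = 1 := by decide
  have h3 : ∀ j : Fin 3, wt (gj j 0) + wt (gj j 1) + wt (gj j 2) = 5 := by decide
  rw [h2, h2, h2, h3] at h1
  omega

theorem irr_cubic (hB : BezoutStmt) (hI : InfStmt)
    (h20 : ∀ s : Finset (Fin 2 → ℂ), (∀ x ∈ s, G S e k x) → s.card ≤ 20)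
    (hG : Irreducible (Gam S e k)) (hdeg : (Gam S e k).totalDegree = 3)
    (s : Finset (Fin 2 → ℂ)) (hs : ∀ x ∈ s, G S e k x) : s.card ≤ 13 := by
  classical
  have h108 : (108 : ℂ) ≠ 0 := by norm_num
  by_cases hZ : ∀ j, Gam S e k ∣ Matrix.cramer (qp S e k) (tp S e k) j
  swap
  · push Not at hZ
    obtain ⟨j, hj⟩ := hZ
    have hnd : ¬ Gam S e k ∣ mnr S e k Fin.castSucc (gj j) := by
      intro h
      apply hj
      rw [mnr_gj] at h
      have h1 : Matrix.cramer (qp S e k) (tp S e k) j =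
          C (108 : ℂ)⁻¹ * (C 108 * Matrix.cramer (qp S e k) (tp S e k) j) := by
        rw [← mul_assoc, ← C_mul, inv_mul_cancel₀ h108, C_1, one_mul]
      rw [h1]
      exact h.mul_left _
    have h1 := hB _ _ hG hnd s fun x hx => ⟨good_Gam (hs x hx), by
      rw [eval_mnr]; exact hs x hx _ _⟩
    have h2 := deg_mnr_gj (S := S) (e := e) (k := k) j
    rw [hdeg] at h1
    omega
  choose z hz using hZ
  have hzd : ∀ j, (z j).totalDegree ≤ 1 := by
    intro j
    by_cases h0 : z j = 0
    · rw [h0, totalDegree_zero]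
      omega
    have h1 := deg_mnr_gj (S := S) (e := e) (k := k) j
    rw [mnr_gj, deg_C_mul h108, hz j, totalDegree_mul_of_isDomain hG.ne_zero h0, hdeg] at h1
    omega
  have hqz : ∀ i, ∑ j, qp S e k i j * z j = tp S e k i := by
    intro i
    apply mul_left_cancel₀ hG.ne_zero
    have h1 := congrFun (Matrix.mulVec_cramer (qp S e k) (tp S e k)) i
    rw [Pi.smul_apply, smul_eq_mul] at h1
    have h2 : (qp S e k).mulVec ((qp S e k).cramer (tp S e k)) i =
        Gam S e k * ∑ j, qp S e k i j * z j := by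
      rw [Matrix.mulVec, dotProduct, Finset.mul_sum]
      refine Finset.sum_congr rfl fun j _ => ?_
      rw [hz j]
      ring
    rw [← h2, h1]
    rfl
  set cc : MvPolynomial (Fin 2) ℂ := C 2 * cp S k - C (3 / 2) * ∑ j, tp S e k j * z j with hcc
  have hccd : cc.totalDegree ≤ 3 := by
    refine (totalDegree_sub _ _).trans (max_le ?_ ?_)
    · rw [deg_C_mul (by norm_num)]
      exact deg_cp k
    · rw [deg_C_mul (by norm_num)]
      refine totalDegree_finsetSum_le fun j _ => ?_
      refine (totalDegree_mul _ _).trans ?_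
      have h1 := deg_tp (S := S) e k j
      have h2 := hzd j
      omega
  have hev : ∀ x, eval x cc = 2 * S.T (kk k x) (kk k x) (kk k x) -
      3 / 2 * ∑ j, S.T (e j) (kk k x) (kk k x) * eval x (z j) := by
    intro x
    simp only [hcc, map_sub, map_mul, eval_C, eval_cp, map_sum, eval_tp]
  have hzx : ∀ x i, ∑ j, S.T (e i) (e j) (kk k x) * eval x (z j) = S.T (e i) (kk k x) (kk k x) := by
    intro x i
    have h1 := congrArg (eval x) (hqz i)
    simpa only [map_sum, map_mul, eval_qp, eval_tp] using h1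
  by_cases hd : Gam S e k ∣ cc
  · exfalso
    obtain ⟨t, ht, htf⟩ := hI (Gam S e k) (deg_pos hG) 21
    obtain ⟨c, hc⟩ := hd
    have h1 := h20 t fun x hx => by
      refine good_of_schur (fun j => eval x (z j)) (hzx x) ?_ ?_
      · rw [← hev x, hc, map_mul, htf x hx, zero_mul]
      · rw [← eval_Gam]
        exact htf x hx
    omega
  · have h1 := hB _ _ hG hd (s.filter fun x => eval x cc = 0) fun x hx =>
      ⟨good_Gam (hs x (Finset.mem_filter.mp hx).1), (Finset.mem_filter.mp hx).2⟩
    have h2 : (s.filter fun x => ¬ eval x cc = 0).card ≤ 1 := by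
      rw [Finset.card_le_one]
      intro x hx y hy
      by_contra hxy
      rw [Finset.mem_filter] at hx hy
      refine rank_one_le hB hG hdeg hxy ?_ ?_
      · exact schur (hs x hx.1) (fun j => eval x (z j)) (hzx x) (by rw [← hev x]; exact hx.2)
      · exact schur (hs y hy.1) (fun j => eval y (z j)) (hzx y) (by rw [← hev y]; exact hy.2)
    have h3 := Finset.card_filter_add_card_filter_not (s := s) (fun x => eval x cc = 0)
    have h4 : (Gam S e k).totalDegree * cc.totalDegree ≤ 9 := by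
      rw [hdeg]
      omega
    omega

/-- **At most thirteen good points in a chart.** -/
theorem le_13 (hB : BezoutStmt) (hI : InfStmt)
    (h20 : ∀ s : Finset (Fin 2 → ℂ), (∀ x ∈ s, G S e k x) → s.card ≤ 20)
    (hline : ∀ l : MvPolynomial (Fin 2) ℂ, l ≠ 0 → l.totalDegree ≤ 1 →
      ∀ s : Finset (Fin 2 → ℂ), (∀ x ∈ s, G S e k x) → (∀ x ∈ s, eval x l = 0) → s.card ≤ 3)
    (h0 : Gam S e k ≠ 0) (s : Finset (Fin 2 → ℂ)) (hs : ∀ x ∈ s, G S e k x) : s.card ≤ 13 :=
  cubic_le hB hI h20 hline h0 deg_Gam s hs (fun x hx => good_Gam (hs x hx))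
    fun h1 h2 => irr_cubic hB hI h20 h1 h2 s hs

end Vale.Agent.P287.R2.H992
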