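import Vale.Agent.P287.R2.H992.Thirteen
import Vale.Agent.P287.R2.H992.Eck28
import Vale.Agent.P287.R2.H622.RowZ

/-!
P287 (helper992, with helper11, helper62, helper389, helper622, helper697, helper847, helper946):
every smooth cubic fourfold with at least 28 planes contains two disjoint planes.
-/

namespace Vale.Agent.P287.R2.H992

open Module Submodule MvPolynomial
open Vale.Agent.P287.R2.H248
open Vale.Agent.P287.R2.H622

variable {V : Type*} [AddCommGroup V] [Module ℂ V] {S : Tri V}

/-- planes that meet `P` in lines, in different directions: at most thirteen -/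
theorem thirteen_planes [FiniteDimensional ℂ V] (hV : finrank ℂ V = 6) (hS : S.Smooth)
    (hno : ∀ v, ¬ S.Eckardt v) {P : Submodule ℂ V} (hP : Pl S P) (N : ℕ)
    (p : Fin N → Submodule ℂ V) (hp : ∀ i, Pl S (p i)) (h2 : ∀ i, finrank ℂ ↥(p i ⊓ P) = 2)
    (hij : ∀ i j, i ≠ j → P ⊔ p i ≠ P ⊔ p j) : N ≤ 13 := by
  have hw : ∀ i, ∃ w ∈ p i, w ∉ P := by
    intro i
    apply Set.not_subset.mp
    intro h
    have h3 : p i ⊓ P = p i := inf_eq_left.mpr h
    have h4 := h2 i
    rw [h3, (hp i).1] at h4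
    omega
  choose w hwp hwP using hw
  have hsup : ∀ i, P ⊔ span ℂ {w i} = P ⊔ p i := by
    intro i
    apply Submodule.eq_of_le_of_finrank_eq
    · refine sup_le le_sup_left ?_
      rw [span_singleton_le_iff_mem]
      exact mem_sup_right (hwp i)
    · have h3 := Submodule.finrank_sup_add_finrank_inf_eq P (p i)
      have h4 := h2 i
      rw [inf_comm] at h4
      rw [h4, hP.1, (hp i).1] at h3
      rw [finrank_sup_single (hwP i), hP.1]
      omega
  refine thirteen hV hS hno hP N w hwP ?_ ?_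
  · intro i j hne hmem
    apply hij i j hne
    rw [← hsup i, ← hsup j]
    symm
    apply Submodule.eq_of_le_of_finrank_eq
    · refine sup_le le_sup_left ?_
      rw [span_singleton_le_iff_mem]
      exact hmem
    · rw [finrank_sup_single (hwP i), finrank_sup_single (hwP j)]
  · intro i
    refine ⟨p i, hp i, ?_, ?_⟩
    · rw [hsup i]
      exact le_sup_right
    · intro h
      have h4 := h2 i
      rw [h, inf_idem, hP.1] at h4
      omega

/-- **Every cubic fourfold with at least 28 planes contains two disjoint planes.** -/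
theorem disjoint_28 {F : MvPolynomial (Fin 6) ℂ} (hF : IsCubicFourfold F)
    (s : Finset (Submodule ℂ A6)) (hs : 28 ≤ s.card) (hsF : ∀ P ∈ s, IsPlaneIn F P) :
    ∃ P Q, IsPlaneIn F P ∧ IsPlaneIn F Q ∧ Disjoint P Q := by
  by_contra hcon
  have hno : ∀ P Q, IsPlaneIn F P → IsPlaneIn F Q → ¬ Disjoint P Q :=
    fun P Q hP hQ hd => hcon ⟨P, Q, hP, hQ, hd⟩
  have hV : finrank ℂ A6 = 6 := by simp [A6]
  by_cases hE : ∃ v, (pol F).Eckardt v
  · obtain ⟨v, hv⟩ := hE
    obtain ⟨P, hPs, -, Q, hQ3, hQI, -, hd⟩ := exists_disjoint_of_eckardt_28 (pol_smooth hF)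
      hV hv s (fun P hP => ⟨(hsF P hP).1, (pol_iso hF.1).mpr (hsF P hP).2⟩) hs
    exact hno P Q (hsF P hPs) ⟨hQ3, (pol_iso hF.1).mp hQI⟩ hd
  · push Not at hE
    have h27 := H622.le_27 hF hno (fun P hP N p hp h2 hij =>
      thirteen_planes hV (pol_smooth hF) hE ((isPlaneIn_iff hF P).1 hP) N p
        (fun i => (isPlaneIn_iff hF (p i)).1 (hp i)) h2 hij) s hsF
    omega

end Vale.Agent.P287.R2.H992
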