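import Vale.Agent.P287.R2.H248.Defs

/-! P287 (helper992): an explicit cubic fourfold with 27 planes, all through one point. -/

namespace Vale.Agent.P287.R2.H992

open Module Submodule MvPolynomial
open Vale.Agent.P287.R2.H248

/-- a cubic fourfold with 27 planes, all through one point -/
noncomputable def F0 : MvPolynomial (Fin 6) ℂ :=
  X 0 ^ 3 + X 1 ^ 3 + X 2 ^ 3 + X 3 ^ 3 + X 4 * X 5 ^ 2 + X 4 ^ 2 * (X 1 + C 2 * X 2 + C 3 * X 3)

lemma eval_F0 (v : A6) : eval v F0 = v 0 ^ 3 + v 1 ^ 3 + v 2 ^ 3 + v 3 ^ 3 + v 4 * v 5 ^ 2 +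
    v 4 ^ 2 * (v 1 + 2 * v 2 + 3 * v 3) := by
  simp [F0]

end Vale.Agent.P287.R2.H992
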