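import Vale.Agent.P287.R2.H622.Geo
import Vale.Agent.P287.R2.H248.Eckardt

/-!
P287 (helper992): the planes that meet a given plane of a smooth cubic fourfold in a line.
Definitions for the sharp bound 28.
-/

namespace Vale.Agent.P287.R2.H992

open Module Submodule
open Vale.Agent.P287.R2.H248
open Vale.Agent.P287.R2.H622

variable {V : Type*} [AddCommGroup V] [Module ℂ V]

/-- The span of `P` and `w` contains a plane of the cubic other than `P`. -/
def Good (S : Tri V) (P : Submodule ℂ V) (w : V) : Prop :=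
  ∃ A : Submodule ℂ V, Pl S A ∧ A ≤ P ⊔ span ℂ {w} ∧ A ≠ P

/-- The symmetric matrix (times two) of the quadric residual to `P` in the span of `P` and `w`,
with respect to the vectors `e 0, e 1, e 2` of `P` and `w`. -/
noncomputable def MM (S : Tri V) (e : Fin 3 → V) (w : V) : Matrix (Fin 4) (Fin 4) ℂ :=
  !![6 * S.T (e 0) (e 0) w, 6 * S.T (e 0) (e 1) w, 6 * S.T (e 0) (e 2) w, 3 * S.T (e 0) w w;
     6 * S.T (e 1) (e 0) w, 6 * S.T (e 1) (e 1) w, 6 * S.T (e 1) (e 2) w, 3 * S.T (e 1) w w;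
     6 * S.T (e 2) (e 0) w, 6 * S.T (e 2) (e 1) w, 6 * S.T (e 2) (e 2) w, 3 * S.T (e 2) w w;
     3 * S.T (e 0) w w, 3 * S.T (e 1) w w, 3 * S.T (e 2) w w, 2 * S.T w w w]

/-- all minors of size three vanish -/
def Min3 (M : Matrix (Fin 4) (Fin 4) ℂ) : Prop :=
  ∀ f g : Fin 3 → Fin 4, (M.submatrix f g).det = 0

end Vale.Agent.P287.R2.H992
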