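import Vale.Agent.P287.R2.H622.Geo
import Vale.Agent.P287.R2.H248.Disjoint
import Vale.Agent.P287.R2.H11.GQ

/-!
P287 (helper992): a smooth cubic surface over the complex numbers contains at most 27 lines.
The cubic form is the diagonal of a symmetric trilinear form on a four-dimensional space.
-/

namespace Vale.Agent.P287.R2.H992

open Module Submodule
open Vale.Agent.P287.R2.H248
open Vale.Agent.P287.R2.H622

variable {V : Type*} [AddCommGroup V] [Module ℂ V] {S : Tri V}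

/-- (the cone over) a line contained in the cubic surface -/
def Ln (S : Tri V) (P : Submodule ℂ V) : Prop := finrank ℂ P = 2 ∧ S.Iso P

/-- Lemma A: the quadric cut out on a line by a point outside is not everything. -/
lemma not_all' [FiniteDimensional ℂ V] (hV : finrank ℂ V = 4) (hS : S.Smooth)
    {P : Submodule ℂ V} (hP : Ln S P) {q : V} (hq : q ∉ P) : ∃ v ∈ P, S.T v v q ≠ 0 := by
  by_contra hcon
  push Not at hcon
  have h1 := finrank_sup_single hq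
  rw [hP.1] at h1
  obtain ⟨w1, hw1⟩ := exists_not_mem (U := P ⊔ span ℂ {q}) (by omega)
  have h2 := finrank_sup_single hw1
  rw [h1] at h2
  have h4 : P ⊔ span ℂ {q} ⊔ span ℂ {w1} = ⊤ := by
    apply Submodule.eq_top_of_finrank_eq
    omega
  obtain ⟨k, hk, hk0⟩ : ∃ k ∈ P, k ≠ 0 := by
    by_contra hcon'
    push Not at hcon'
    have h5 := hP.1
    rw [(Submodule.eq_bot_iff P).mpr hcon', finrank_bot] at h5
    omega
  obtain ⟨e, he, hek, -⟩ := exists_pair hP.1 hk hk0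
  obtain ⟨s, r, hsr, hquad⟩ := quad_zero (S.T k k w1) (S.T k e w1) (S.T e e w1)
  have hv : s • k + r • e ∈ P := P.add_mem (P.smul_mem _ hk) (P.smul_mem _ he)
  have hv0 : s • k + r • e = 0 := by
    apply tang_top hS
    rw [eq_top_iff, ← h4]
    refine sup_le (sup_le (le_tang hP.2 hv) ?_) ?_
    · rw [span_singleton_le_iff_mem]; exact hcon _ hv
    · rw [span_singleton_le_iff_mem, mem_tang, S.sq_add]
      exact hquad
  obtain ⟨a1, a2⟩ := Tri.pair_eq_zero hk0 hek hv0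
  rcases hsr with h | h
  · exact h a1
  · exact h a2

/-- The three lines in the span of two lines that meet. -/
structure Triple' (S : Tri V) (P Q R W : Submodule ℂ V) : Prop where
  p : Ln S P
  q : Ln S Q
  r : Ln S R
  w : finrank ℂ W = 3
  pw : P ≤ W
  qw : Q ≤ W
  rw : R ≤ W
  pq : finrank ℂ ↥(P ⊓ Q) = 1
  pr : finrank ℂ ↥(P ⊓ R) = 1
  qr : finrank ℂ ↥(Q ⊓ R) = 1
  all : ∀ x ∈ W, S.T x x x = 0 → x ∈ P ∨ x ∈ Q ∨ x ∈ R

theorem exists_triple' [FiniteDimensional ℂ V] (hV : finrank ℂ V = 4) (hS : S.Smooth)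
    {P Q : Submodule ℂ V} (hP : Ln S P) (hQ : Ln S Q) (hPQ : finrank ℂ ↥(P ⊓ Q) = 1) :
    ∃ R, Triple' S P Q R (P ⊔ Q) := by
  have hPQ' : ¬ P ≤ Q := by
    intro h
    rw [inf_eq_left.mpr h, hP.1] at hPQ
    omega
  have hQP' : ¬ Q ≤ P := by
    intro h
    rw [inf_eq_right.mpr h, hQ.1] at hPQ
    omega
  obtain ⟨p, hp, hpQ⟩ := Set.not_subset.mp hPQ'
  obtain ⟨q, hq, hqP⟩ := Set.not_subset.mp hQP'
  obtain ⟨f, hfp, hfQ⟩ := exists_functional hpQ
  obtain ⟨g, hgq, hgP⟩ := exists_functional hqP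
  have hW := Submodule.finrank_sup_add_finrank_inf_eq P Q
  rw [hP.1, hQ.1, hPQ] at hW
  have hW4 : finrank ℂ ↥(P ⊔ Q) = 3 := by omega
  -- the decomposition of P, Q and W
  have hpL : p ∉ P ⊓ Q := fun h => hpQ h.2
  have hqL : q ∉ P ⊓ Q := fun h => hqP h.1
  have hPL : P ⊓ Q ⊔ span ℂ {p} = P := by
    apply Submodule.eq_of_le_of_finrank_eq
    · refine sup_le inf_le_left ?_
      rw [span_singleton_le_iff_mem]; exact hp
    · rw [finrank_sup_single hpL, hPQ, hP.1]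
  have hQL : P ⊓ Q ⊔ span ℂ {q} = Q := by
    apply Submodule.eq_of_le_of_finrank_eq
    · refine sup_le inf_le_right ?_
      rw [span_singleton_le_iff_mem]; exact hq
    · rw [finrank_sup_single hqL, hPQ, hQ.1]
  have decP : ∀ v ∈ P, ∃ x ∈ P ⊓ Q, ∃ a : ℂ, v = x + a • p := by
    intro v hv
    rw [← hPL] at hv
    obtain ⟨x, hx, y, hy, rfl⟩ := mem_sup.mp hv
    obtain ⟨a, rfl⟩ := mem_span_singleton.mp hy
    exact ⟨x, hx, a, rfl⟩
  have decQ : ∀ v ∈ Q, ∃ x ∈ P ⊓ Q, ∃ a : ℂ, v = x + a • q := by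
    intro v hv
    rw [← hQL] at hv
    obtain ⟨x, hx, y, hy, rfl⟩ := mem_sup.mp hv
    obtain ⟨a, rfl⟩ := mem_span_singleton.mp hy
    exact ⟨x, hx, a, rfl⟩
  have decW : ∀ v ∈ P ⊔ Q, ∃ x ∈ P ⊓ Q, ∃ a b : ℂ, v = x + a • p + b • q := by
    intro v hv
    obtain ⟨y, hy, z, hz, rfl⟩ := mem_sup.mp hv
    obtain ⟨x, hx, a, rfl⟩ := decP y hy
    obtain ⟨x', hx', b, rfl⟩ := decQ z hz
    exact ⟨x + x', Submodule.add_mem _ hx hx', a, b, by abel⟩
  let l : V →ₗ[ℂ] ℂ := (2 : ℂ) • S.T p q - (S.T p p q) • f - (S.T p q q) • g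
  have hl : ∀ v, l v = 2 * S.T p q v - S.T p p q * f v - S.T p q q * g v := fun v => rfl
  have vals : ∀ x ∈ P ⊓ Q, ∀ a b : ℂ, f (x + a • p + b • q) = a ∧ g (x + a • p + b • q) = b ∧
      l (x + a • p + b • q) = 2 * S.T x p q + a * S.T p p q + b * S.T p q q := by
    intro x hx a b
    have h1 : f (x + a • p + b • q) = a := by
      rw [map_add, map_add, map_smul, map_smul, hfp, hfQ x hx.2, hfQ q hq]
      simp
    have h2 : g (x + a • p + b • q) = b := by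
      rw [map_add, map_add, map_smul, map_smul, hgq, hgP x hx.1, hgP p hp]
      simp
    refine ⟨h1, h2, ?_⟩
    rw [hl, h1, h2]
    simp only [map_add, map_smul, smul_eq_mul]
    rw [← S.cyc x p q, S.s23 p q p]
    ring
  have cube : ∀ x ∈ P ⊓ Q, ∀ a b : ℂ,
      S.T (x + a • p + b • q) (x + a • p + b • q) (x + a • p + b • q) =
      3 * a * b * (2 * S.T x p q + a * S.T p p q + b * S.T p q q) := by
    intro x hx a b
    exact cube_three S x p q a b (hP.2 x hx.1) (hP.2.three hx.1 hx.1 hp) (hP.2.three hx.1 hp hp)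
      (hP.2 p hp) (hQ.2.three hx.2 hx.2 hq) (hQ.2.three hx.2 hq hq) (hQ.2 q hq)
  -- the linear form is nonzero on P and on Q
  have hlP : ∃ v ∈ P, l v ≠ 0 := by
    obtain ⟨v, hv, hv1⟩ := not_all' hV hS hP hqP
    refine ⟨v, hv, fun h => hv1 ?_⟩
    obtain ⟨x, hx, a, rfl⟩ := decP v hv
    have h1 := (vals x hx a 0).2.2
    rw [zero_smul, add_zero, h] at h1
    have h2 := S.sq_add 1 a x p q
    rw [one_smul, hQ.2.three hx.2 hx.2 hq] at h2
    rw [h2]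
    linear_combination (-a) * h1
  have hlQ : ∃ v ∈ Q, l v ≠ 0 := by
    obtain ⟨v, hv, hv1⟩ := not_all' hV hS hQ hpQ
    refine ⟨v, hv, fun h => hv1 ?_⟩
    obtain ⟨x, hx, b, rfl⟩ := decQ v hv
    have h1 := (vals x hx 0 b).2.2
    rw [zero_smul, add_zero, h] at h1
    have h2 := S.sq_add 1 b x q p
    rw [one_smul, hP.2.three hx.1 hx.1 hp, S.s23 x q p, ← S.cyc p q q] at h2
    rw [h2]
    linear_combination (-b) * h1
  obtain ⟨vP, hvP, hvPl⟩ := hlP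
  obtain ⟨vQ, hvQ, hvQl⟩ := hlQ
  refine ⟨(P ⊔ Q) ⊓ LinearMap.ker l, ⟨hP, hQ, ⟨?_, ?_⟩, hW4, le_sup_left, le_sup_right,
    inf_le_left, hPQ, ?_, ?_, ?_⟩⟩
  · have := finrank_inf_ker (W := P ⊔ Q) (Submodule.mem_sup_left hvP) hvPl
    omega
  · rintro u ⟨hu, hul⟩
    obtain ⟨x, hx, a, b, rfl⟩ := decW u hu
    rw [cube x hx a b]
    have h1 := (vals x hx a b).2.2
    have hul' : l (x + a • p + b • q) = 0 := hul
    rw [hul'] at h1
    rw [← h1, mul_zero]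
  · rw [← inf_assoc, inf_eq_left.mpr (le_sup_left : P ≤ P ⊔ Q)]
    have := finrank_inf_ker (W := P) hvP hvPl
    rw [hP.1] at this
    omega
  · rw [← inf_assoc, inf_eq_left.mpr (le_sup_right : Q ≤ P ⊔ Q)]
    have := finrank_inf_ker (W := Q) hvQ hvQl
    rw [hQ.1] at this
    omega
  · intro u hu hu3
    obtain ⟨x, hx, a, b, rfl⟩ := decW u hu
    rw [cube x hx a b] at hu3
    by_cases ha : a = 0
    · right; left
      rw [ha, zero_smul, add_zero]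
      exact Q.add_mem hx.2 (Q.smul_mem _ hq)
    · by_cases hb : b = 0
      · left
        rw [hb, zero_smul, add_zero]
        exact P.add_mem hx.1 (P.smul_mem _ hp)
      · right; right
        refine ⟨hu, ?_⟩
        change l (x + a • p + b • q) = 0
        rw [(vals x hx a b).2.2]
        have h3 : (3 : ℂ) * a * b ≠ 0 := by
          apply mul_ne_zero (mul_ne_zero (by norm_num) ha) hb
        exact (mul_eq_zero.mp hu3).resolve_left h3

lemma sup_eq_of_meet' [FiniteDimensional ℂ V] {X Y W : Submodule ℂ V} (hX : finrank ℂ X = 2)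
    (hY : finrank ℂ Y = 2) (hW : finrank ℂ W = 3) (hXW : X ≤ W) (hYW : Y ≤ W)
    (hXY : finrank ℂ ↥(X ⊓ Y) = 1) : X ⊔ Y = W := by
  apply Submodule.eq_of_le_of_finrank_eq (sup_le hXW hYW)
  have := Submodule.finrank_sup_add_finrank_inf_eq X Y
  omega

/-- The third line of a meeting pair, and the other lines. -/
theorem third_ln [FiniteDimensional ℂ V] (hV : finrank ℂ V = 4) (hS : S.Smooth)
    {P Q : Submodule ℂ V} (hP : Ln S P) (hQ : Ln S Q) (hPQ : finrank ℂ ↥(P ⊓ Q) = 1) :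
    ∃ R, Ln S R ∧ R ≠ P ∧ R ≠ Q ∧ finrank ℂ ↥(P ⊓ R) = 1 ∧ finrank ℂ ↥(Q ⊓ R) = 1 ∧
      ∀ E, Ln S E → E ≠ P → E ≠ Q → E ≠ R →
        (finrank ℂ ↥(E ⊓ P) = 1 ∨ finrank ℂ ↥(E ⊓ Q) = 1 ∨ finrank ℂ ↥(E ⊓ R) = 1) ∧
        ¬ (finrank ℂ ↥(E ⊓ P) = 1 ∧ finrank ℂ ↥(E ⊓ Q) = 1) ∧
        ¬ (finrank ℂ ↥(E ⊓ P) = 1 ∧ finrank ℂ ↥(E ⊓ R) = 1) ∧
        ¬ (finrank ℂ ↥(E ⊓ Q) = 1 ∧ finrank ℂ ↥(E ⊓ R) = 1) := by
  obtain ⟨R, hR⟩ := exists_triple' hV hS hP hQ hPQ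
  refine ⟨R, hR.r, ?_, ?_, hR.pr, hR.qr, ?_⟩
  · rintro rfl
    have := hR.pr
    rw [inf_idem, hR.p.1] at this
    omega
  · rintro rfl
    have := hR.qr
    rw [inf_idem, hR.q.1] at this
    omega
  intro E hE hEP hEQ hER
  set W := P ⊔ Q with hWdef
  -- the intersection with the plane
  have hDle : E ⊓ W ≤ P ∨ E ⊓ W ≤ Q ∨ E ⊓ W ≤ R :=
    le_of_union fun x hx => hR.all x hx.2 (hE.2 x hx.1)
  have hd := Submodule.finrank_sup_add_finrank_inf_eq E W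
  rw [hE.1, hR.w] at hd
  have hd6 := Submodule.finrank_le (E ⊔ W)
  rw [hV] at hd6
  have hd3 : finrank ℂ ↥(E ⊓ W) ≤ 2 := by
    rw [← hE.1]; exact Submodule.finrank_mono inf_le_left
  have hne3 : finrank ℂ ↥(E ⊓ W) ≠ 2 := by
    intro h3
    have h4 : E ⊓ W = E := Submodule.eq_of_le_of_finrank_eq inf_le_left (by rw [h3, hE.1])
    rw [h4] at hDle
    rcases hDle with h | h | h
    · exact hEP (Submodule.eq_of_le_of_finrank_eq h (by rw [hE.1, hR.p.1]))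
    · exact hEQ (Submodule.eq_of_le_of_finrank_eq h (by rw [hE.1, hR.q.1]))
    · exact hER (Submodule.eq_of_le_of_finrank_eq h (by rw [hE.1, hR.r.1]))
  have hD1 : finrank ℂ ↥(E ⊓ W) = 1 := by omega
  have htop : E ⊔ W = ⊤ := by
    apply Submodule.eq_top_of_finrank_eq
    omega
  obtain ⟨d, hdm, hd0⟩ : ∃ d ∈ E ⊓ W, d ≠ 0 := by
    by_contra hcon'
    push Not at hcon'
    rw [(Submodule.eq_bot_iff _).mpr hcon', finrank_bot] at hD1
    omega
  have key : ∀ X, X ≤ W → (finrank ℂ ↥(E ⊓ X) = 1 ↔ E ⊓ W ≤ X) := by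
    intro X hX
    constructor
    · intro h
      have h1 : E ⊓ X = E ⊓ W :=
        Submodule.eq_of_le_of_finrank_eq (inf_le_inf_left E hX) (by rw [h, hD1])
      rw [← h1]
      exact inf_le_right
    · intro h
      have h1 : E ⊓ X = E ⊓ W :=
        le_antisymm (inf_le_inf_left E hX) (le_inf inf_le_left h)
      rw [h1, hD1]
  have two : ∀ X Y, Ln S X → Ln S Y → X ≤ W → Y ≤ W → finrank ℂ ↥(X ⊓ Y) = 1 →
      ¬ (finrank ℂ ↥(E ⊓ X) = 1 ∧ finrank ℂ ↥(E ⊓ Y) = 1) := by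
    rintro X Y hX hY hXW hYW hXY ⟨h1, h2⟩
    rw [key X hXW] at h1
    rw [key Y hYW] at h2
    have h3 := sup_eq_of_meet' hX.1 hY.1 hR.w hXW hYW hXY
    apply hd0
    apply tang_top hS
    rw [eq_top_iff, ← htop, ← h3]
    exact sup_le (le_tang hE.2 hdm.1) (sup_le (le_tang hX.2 (h1 hdm)) (le_tang hY.2 (h2 hdm)))
  refine ⟨?_, two P Q hP hQ hR.pw hR.qw hPQ, two P R hP hR.r hR.pw hR.rw hR.pr,
    two Q R hQ hR.r hR.qw hR.rw hR.qr⟩
  rw [key P hR.pw, key Q hR.qw, key R hR.rw]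
  exact hDle

/-- Every line meets another line. -/
theorem exists_meet [FiniteDimensional ℂ V] (hV : finrank ℂ V = 4) (hS : S.Smooth)
    {P : Submodule ℂ V} (hP : Ln S P) : ∃ Q, Ln S Q ∧ finrank ℂ ↥(P ⊓ Q) = 1 := by
  obtain ⟨q0, hq0⟩ : ∃ q, q ∉ P := by
    apply exists_not_mem
    rw [hP.1, hV]
    norm_num
  obtain ⟨p, hp, hdeg⟩ := Tri.exists_deg hS hV hP.1 hP.2 hq0
  have hpm : p ∉ P := fun h => hp (mem_sup_left h)
  obtain ⟨L, hL, hIL, hLp, hLP⟩ := Tri.exists_line hS hV hP.1 hP.2 hpm hdeg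
  refine ⟨L, ⟨hL, hIL⟩, ?_⟩
  have h1 : P ⊔ L ≤ P ⊔ span ℂ {p} := sup_le le_sup_left hLp
  have h2 := Submodule.finrank_mono h1
  rw [finrank_sup_single hpm, hP.1] at h2
  have h3 := Submodule.finrank_sup_add_finrank_inf_eq P L
  rw [hP.1, hL] at h3
  have h4 : finrank ℂ ↥(P ⊓ L) ≤ 2 := by
    rw [← hL]; exact Submodule.finrank_mono inf_le_right
  have h5 : finrank ℂ ↥(P ⊓ L) ≠ 2 := by
    intro h
    apply hLP
    have h6 : P ⊓ L = L := Submodule.eq_of_le_of_finrank_eq inf_le_right (by rw [h, hL])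
    rw [← h6]
    exact inf_le_left
  omega

/-- Every line misses another line. -/
theorem exists_miss [FiniteDimensional ℂ V] (hV : finrank ℂ V = 4) (hS : S.Smooth)
    {P : Submodule ℂ V} (hP : Ln S P) : ∃ Q, Ln S Q ∧ Q ≠ P ∧ finrank ℂ ↥(P ⊓ Q) ≠ 1 := by
  obtain ⟨L, hL, hIL, hd⟩ := Tri.exists_disjoint hS hV hP.1 hP.2
  have hbot : P ⊓ L = ⊥ := disjoint_iff.mp hd
  refine ⟨L, ⟨hL, hIL⟩, ?_, ?_⟩
  · rintro rfl
    rw [inf_idem] at hbot
    rw [hbot, finrank_bot] at hL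
    omega
  · rw [hbot, finrank_bot]
    omega

/-- **A smooth cubic surface contains at most 27 lines.** -/
theorem lines_le_27 [FiniteDimensional ℂ V] (hV : finrank ℂ V = 4) (hS : S.Smooth)
    (s : Finset (Submodule ℂ V)) (hs : ∀ P ∈ s, finrank ℂ P = 2 ∧ S.Iso P) :
    s.card ≤ 27 := by
  rcases s.eq_empty_or_nonempty with rfl | ⟨P0, hP0⟩
  · simp
  refine H11.card_le_27_of_subtype (P := Ln S)
    (adj := fun x y => finrank ℂ ↥(x.1 ⊓ y.1) = 1) ?_ ?_ ?_ ?_ ?_ s hs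
  · intro x y hxy
    rw [inf_comm]
    exact hxy
  · intro x hx
    have h1 : finrank ℂ ↥(x.1 ⊓ x.1) = 1 := hx
    rw [inf_idem, x.2.1] at h1
    omega
  · intro x y hxy
    obtain ⟨R, hR, h1, h2, h3, h4, h5⟩ := third_ln hV hS x.2 y.2 hxy
    refine ⟨⟨R, hR⟩, fun h => h1 (congrArg Subtype.val h), fun h => h2 (congrArg Subtype.val h),
      h3, h4, ?_⟩
    intro w hwx hwy hwR
    exact h5 w.1 w.2 (fun h => hwx (Subtype.ext h)) (fun h => hwy (Subtype.ext h))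
      (fun h => hwR (Subtype.ext h))
  · intro x
    obtain ⟨Q, hQ, h1, h2⟩ := exists_miss hV hS x.2
    exact ⟨⟨Q, hQ⟩, fun h => h1 (congrArg Subtype.val h), h2⟩
  · obtain ⟨Q, hQ, h1⟩ := exists_meet hV hS (hs P0 hP0)
    exact ⟨⟨P0, hs P0 hP0⟩, ⟨Q, hQ⟩, h1⟩

end Vale.Agent.P287.R2.H992
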