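import Vale.Agent.P287.R2.H992.Good

/-!
P287 (helper992): the matrix `MM` in an affine chart, as a matrix of polynomials.
-/

namespace Vale.Agent.P287.R2.H992

open Module Submodule MvPolynomial
open Vale.Agent.P287.R2.H248
open Vale.Agent.P287.R2.H622

variable {V : Type*} [AddCommGroup V] [Module ℂ V] {S : Tri V}

/-- the coordinate functions of the chart -/
noncomputable def kp : Fin 3 → MvPolynomial (Fin 2) ℂ := ![1, X 0, X 1]

/-- the values of the coordinate functions -/
def kv (x : Fin 2 → ℂ) : Fin 3 → ℂ := ![1, x 0, x 1]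

/-- the point of the chart -/
noncomputable def kk (k : Fin 3 → V) (x : Fin 2 → ℂ) : V := ∑ l, kv x l • k l

lemma eval_kp (x : Fin 2 → ℂ) (l : Fin 3) : eval x (kp l) = kv x l := by
  fin_cases l <;> simp [kp, kv]

lemma deg_kp (l : Fin 3) : (kp l).totalDegree ≤ 1 := by
  fin_cases l
  · simp [kp]
  · simp [kp, totalDegree_X]
  · simp [kp, totalDegree_X]

/-- the block `q` -/
noncomputable def qp (S : Tri V) (e k : Fin 3 → V) : Matrix (Fin 3) (Fin 3) (MvPolynomial (Fin 2) ℂ) :=
  Matrix.of fun i j => ∑ l, C (S.T (e i) (e j) (k l)) * kp l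

/-- the column `t` -/
noncomputable def tp (S : Tri V) (e k : Fin 3 → V) (i : Fin 3) : MvPolynomial (Fin 2) ℂ :=
  ∑ l, ∑ m, C (S.T (e i) (k l) (k m)) * (kp l * kp m)

/-- the entry `c` -/
noncomputable def cp (S : Tri V) (k : Fin 3 → V) : MvPolynomial (Fin 2) ℂ :=
  ∑ l, ∑ m, ∑ n, C (S.T (k l) (k m) (k n)) * (kp l * (kp m * kp n))

lemma eval_qp (e k : Fin 3 → V) (x : Fin 2 → ℂ) (i j : Fin 3) :
    eval x (qp S e k i j) = S.T (e i) (e j) (kk k x) := by
  simp only [qp, kk, Matrix.of_apply, map_sum, map_mul, eval_C, eval_kp, map_smul, smul_eq_mul]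
  exact Finset.sum_congr rfl fun l _ => mul_comm _ _

lemma eval_tp (e k : Fin 3 → V) (x : Fin 2 → ℂ) (i : Fin 3) :
    eval x (tp S e k i) = S.T (e i) (kk k x) (kk k x) := by
  simp only [tp, kk, map_sum, map_mul, eval_C, eval_kp, map_smul, smul_eq_mul,
    LinearMap.sum_apply, LinearMap.smul_apply, Finset.mul_sum]
  rw [Finset.sum_comm]
  refine Finset.sum_congr rfl fun l _ => Finset.sum_congr rfl fun m _ => ?_
  ring

lemma eval_cp (k : Fin 3 → V) (x : Fin 2 → ℂ) :
    eval x (cp S k) = S.T (kk k x) (kk k x) (kk k x) := by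
  simp only [cp, kk, map_sum, map_mul, eval_C, eval_kp, map_smul, smul_eq_mul,
    LinearMap.sum_apply, LinearMap.smul_apply, Finset.mul_sum]
  simp only [Fin.sum_univ_three]
  ring

lemma deg_qp (e k : Fin 3 → V) (i j : Fin 3) : (qp S e k i j).totalDegree ≤ 1 := by
  rw [qp, Matrix.of_apply]
  refine totalDegree_finsetSum_le fun l _ => ?_
  refine (totalDegree_mul _ _).trans ?_
  rw [totalDegree_C, zero_add]
  exact deg_kp l

lemma deg_tp (e k : Fin 3 → V) (i : Fin 3) : (tp S e k i).totalDegree ≤ 2 := by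
  refine totalDegree_finsetSum_le fun l _ => totalDegree_finsetSum_le fun m _ => ?_
  refine (totalDegree_mul _ _).trans ?_
  rw [totalDegree_C, zero_add]
  have h1 := totalDegree_mul (kp l) (kp m)
  have h2 := deg_kp l
  have h3 := deg_kp m
  omega

lemma deg_cp (k : Fin 3 → V) : (cp S k).totalDegree ≤ 3 := by
  refine totalDegree_finsetSum_le fun l _ => totalDegree_finsetSum_le fun m _ =>
    totalDegree_finsetSum_le fun n _ => ?_
  refine (totalDegree_mul _ _).trans ?_
  rw [totalDegree_C, zero_add]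
  have h1 := totalDegree_mul (kp l) (kp m * kp n)
  have h2 := totalDegree_mul (kp m) (kp n)
  have h3 := deg_kp l
  have h4 := deg_kp m
  have h5 := deg_kp n
  omega

/-- the matrix of polynomials -/
noncomputable def PM (S : Tri V) (e k : Fin 3 → V) :
    Matrix (Fin 4) (Fin 4) (MvPolynomial (Fin 2) ℂ) :=
  !![C 6 * qp S e k 0 0, C 6 * qp S e k 0 1, C 6 * qp S e k 0 2, C 3 * tp S e k 0;
     C 6 * qp S e k 1 0, C 6 * qp S e k 1 1, C 6 * qp S e k 1 2, C 3 * tp S e k 1;
     C 6 * qp S e k 2 0, C 6 * qp S e k 2 1, C 6 * qp S e k 2 2, C 3 * tp S e k 2;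
     C 3 * tp S e k 0, C 3 * tp S e k 1, C 3 * tp S e k 2, C 2 * cp S k]

lemma eval_PM (e k : Fin 3 → V) (x : Fin 2 → ℂ) (i j : Fin 4) :
    eval x (PM S e k i j) = MM S e (kk k x) i j := by
  fin_cases i <;> fin_cases j <;> simp [PM, MM, eval_qp, eval_tp, eval_cp]

/-- the weight of an index -/
def wt (i : Fin 4) : ℕ := if i = 3 then 3 else 1

lemma deg_PM (e k : Fin 3 → V) (i j : Fin 4) :
    2 * (PM S e k i j).totalDegree ≤ wt i + wt j := by
  have hC : ∀ (c : ℂ) (p : MvPolynomial (Fin 2) ℂ), (C c * p).totalDegree ≤ p.totalDegree := by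
    intro c p
    refine (totalDegree_mul _ _).trans ?_
    rw [totalDegree_C, zero_add]
  have hq : ∀ i j, (C 6 * qp S e k i j).totalDegree ≤ 1 := fun i j =>
    (hC _ _).trans (deg_qp e k i j)
  have ht : ∀ i, (C 3 * tp S e k i).totalDegree ≤ 2 := fun i => (hC _ _).trans (deg_tp e k i)
  have hc : (C 2 * cp S k).totalDegree ≤ 3 := (hC _ _).trans (deg_cp k)
  fin_cases i <;> fin_cases j <;>
    simp only [PM, wt, Matrix.of_apply, Matrix.cons_val', Matrix.cons_val_zero, Matrix.cons_val_one,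
      Matrix.cons_val, Fin.zero_eta, Fin.mk_one, Fin.reduceFinMk, Fin.isValue, Fin.reduceEq,
      if_true, if_false, Matrix.cons_val_fin_one]
  all_goals first
    | (have h := hq 0 0; omega)
    | (have h := hq 0 1; omega)
    | (have h := hq 0 2; omega)
    | (have h := hq 1 0; omega)
    | (have h := hq 1 1; omega)
    | (have h := hq 1 2; omega)
    | (have h := hq 2 0; omega)
    | (have h := hq 2 1; omega)
    | (have h := hq 2 2; omega)
    | (have h := ht 0; omega)
    | (have h := ht 1; omega)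
    | (have h := ht 2; omega)

/-- the minors -/
noncomputable def mnr (S : Tri V) (e k : Fin 3 → V) (f g : Fin 3 → Fin 4) :
    MvPolynomial (Fin 2) ℂ := ((PM S e k).submatrix f g).det

lemma eval_mnr (e k : Fin 3 → V) (x : Fin 2 → ℂ) (f g : Fin 3 → Fin 4) :
    eval x (mnr S e k f g) = ((MM S e (kk k x)).submatrix f g).det := by
  rw [mnr, RingHom.map_det]
  congr 1
  ext i j
  exact eval_PM e k x (f i) (g j)

lemma wt_sum {f : Fin 3 → Fin 4} (hf : Function.Injective f) : wt (f 0) + wt (f 1) + wt (f 2) ≤ 5 := by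
  have h1 : f 0 ≠ f 1 := fun h => by simpa using hf h
  have h2 : f 0 ≠ f 2 := fun h => by simpa using hf h
  have h3 : f 1 ≠ f 2 := fun h => by simpa using hf h
  simp only [wt]
  split_ifs <;> omega

lemma deg_mnr' (e k : Fin 3 → V) (f g : Fin 3 → Fin 4) :
    2 * (mnr S e k f g).totalDegree ≤
      (wt (f 0) + wt (f 1) + wt (f 2)) + (wt (g 0) + wt (g 1) + wt (g 2)) := by
  have key : (mnr S e k f g).totalDegree ≤
      ((wt (f 0) + wt (f 1) + wt (f 2)) + (wt (g 0) + wt (g 1) + wt (g 2))) / 2 := by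
    rw [mnr, Matrix.det_apply]
    refine totalDegree_finsetSum_le fun σ _ => ?_
    have h3 : ((Equiv.Perm.sign σ : ℤˣ) • ∏ i, (PM S e k).submatrix f g (σ i) i).totalDegree ≤
        (∏ i, (PM S e k).submatrix f g (σ i) i).totalDegree := by
      rcases Int.units_eq_one_or (Equiv.Perm.sign σ) with h | h
      · rw [h, one_smul]
      · rw [h, Units.neg_smul, one_smul, totalDegree_neg]
    refine h3.trans ?_
    have h4 : (∏ i, (PM S e k).submatrix f g (σ i) i).totalDegree ≤
        ∑ i, ((PM S e k).submatrix f g (σ i) i).totalDegree := totalDegree_finsetProd _ _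
    have h5 : 2 * ∑ i, ((PM S e k).submatrix f g (σ i) i).totalDegree ≤
        ∑ i, (wt (f (σ i)) + wt (g i)) := by
      rw [Finset.mul_sum]
      exact Finset.sum_le_sum fun i _ => deg_PM e k (f (σ i)) (g i)
    have h6 : ∑ i, (wt (f (σ i)) + wt (g i)) = ∑ i, wt (f i) + ∑ i, wt (g i) := by
      rw [Finset.sum_add_distrib, Equiv.sum_comp σ (fun i => wt (f i))]
    have h7 : ∑ i, wt (f i) = wt (f 0) + wt (f 1) + wt (f 2) := Fin.sum_univ_three _
    have h8 : ∑ i, wt (g i) = wt (g 0) + wt (g 1) + wt (g 2) := Fin.sum_univ_three _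
    omega
  omega

lemma deg_mnr (e k : Fin 3 → V) (f g : Fin 3 → Fin 4) : (mnr S e k f g).totalDegree ≤ 5 := by
  by_cases hf : Function.Injective f
  swap
  · rw [Function.not_injective_iff] at hf
    obtain ⟨a, b, hab, hne⟩ := hf
    have : mnr S e k f g = 0 := by
      refine Matrix.det_zero_of_row_eq hne ?_
      ext j
      simp [hab]
    rw [this, totalDegree_zero]
    omega
  by_cases hg : Function.Injective g
  swap
  · rw [Function.not_injective_iff] at hg
    obtain ⟨a, b, hab, hne⟩ := hg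
    have : mnr S e k f g = 0 := by
      refine Matrix.det_zero_of_column_eq hne ?_
      intro j
      simp [hab]
    rw [this, totalDegree_zero]
    omega
  have h1 := wt_sum hf
  have h2 := wt_sum hg
  have h3 := deg_mnr' (S := S) e k f g
  omega

end Vale.Agent.P287.R2.H992
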