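import Vale.Agent.P287.R2.H992.Fzero
import Vale.Agent.P287.R2.H847.RowS1
import Vale.Agent.P287.R2.H62.RowS2b
import Vale.Agent.P287.R2.H11.Seven
import Vale.Agent.P287.R2.H946.S2a

/-!
P287 (helper992, with helper11, helper62, helper847, helper946): 28 is best possible. There is a
cubic fourfold with 27 planes, no two of them disjoint.
-/

namespace Vale.Agent.P287.R2.H992

open Module Submodule MvPolynomial
open Vale.Agent.P287.R2.H248

/-- every plane of the example contains the Eckardt point -/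
theorem mem_of_plane (P : Submodule ℂ A6) (hP : IsPlaneIn F0 P) : Pi.single 5 1 ∈ P :=
  H62.contains_e5 (fun _ hW y h1 h2 => H946.row_S2a hW y h1 h2) P hP

/-- **Twenty-seven planes do not suffice.** -/
theorem sharp : ∃ F, IsCubicFourfold F ∧
    (∃ s : Finset (Submodule ℂ A6), s.card = 27 ∧ ∀ P ∈ s, IsPlaneIn F P) ∧
    ¬ ∃ P Q, IsPlaneIn F P ∧ IsPlaneIn F Q ∧ Disjoint P Q := by
  refine ⟨F0, H847.S1.row_S1, H11.row_S3, ?_⟩
  rintro ⟨P, Q, hP, hQ, hd⟩
  have h := Submodule.disjoint_def.mp hd _ (mem_of_plane P hP) (mem_of_plane Q hQ)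
  have h5 := congrFun h 5
  simp at h5

end Vale.Agent.P287.R2.H992
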