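import Vale.Agent.P287.R2.H992.Cubic3
import Vale.Agent.P287.R2.H697.RowML
import Vale.Agent.P287.R2.H697.RowK
import Vale.Agent.P287.R2.H62.RowT
import Vale.Agent.P287.R2.H697.RowA1
import Vale.Agent.P287.R2.H946.A2
import Vale.Agent.P287.R2.H389.RowC
import Vale.Agent.P287.R2.H11.Net
import Vale.Agent.P287.R2.H11.Bez
import Vale.Agent.P287.R2.H847.RowI

/-!
P287 (helper992): a plane of a smooth cubic fourfold without Eckardt points meets other planes in
lines in at most thirteen directions.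
-/

namespace Vale.Agent.P287.R2.H992

open Module Submodule MvPolynomial
open Vale.Agent.P287.R2.H248
open Vale.Agent.P287.R2.H622

variable {V : Type*} [AddCommGroup V] [Module ℂ V] {S : Tri V}

lemma Good.congr {P : Submodule ℂ V} {w w' : V} (h : Good S P w)
    (hww : P ⊔ span ℂ {w} = P ⊔ span ℂ {w'}) : Good S P w' := by
  obtain ⟨A, h1, h2, h3⟩ := h
  exact ⟨A, h1, hww ▸ h2, h3⟩

/-- the determinant of the net is not the zero polynomial -/
lemma Gam_ne {e k : Fin 3 → V} (a : Fin 3 → ℂ)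
    (ha : (Matrix.of fun i j => S.T (e i) (e j) (∑ l, a l • k l)).det ≠ 0) : Gam S e k ≠ 0 := by
  intro h0
  have hx : ∀ x : Fin 2 → ℂ, (Matrix.of fun i j => S.T (e i) (e j) (kk k x)).det = 0 := by
    intro x
    rw [← eval_Gam, h0, map_zero]
  -- points off the line at infinity
  have h1 : ∀ b : Fin 3 → ℂ, b 0 ≠ 0 →
      (Matrix.of fun i j => S.T (e i) (e j) (∑ l, b l • k l)).det = 0 := by
    intro b hb
    have h2 : ∑ l, b l • k l = b 0 • kk k ![b 1 / b 0, b 2 / b 0] := by
      simp only [kk, Fin.sum_univ_three, kv, Matrix.cons_val_zero, Matrix.cons_val_one,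
        Matrix.cons_val, smul_add, smul_smul, mul_one, mul_div_cancel₀ _ hb]
    have h3 : (Matrix.of fun i j => S.T (e i) (e j) (∑ l, b l • k l)) =
        b 0 • Matrix.of fun i j => S.T (e i) (e j) (kk k ![b 1 / b 0, b 2 / b 0]) := by
      ext i j
      simp only [Matrix.of_apply, Matrix.smul_apply, h2, map_smul]
    rw [h3, Matrix.det_smul, hx, mul_zero]
  apply ha
  by_cases hb : a 0 ≠ 0
  · exact h1 a hb
  push Not at hb
  have h4 : ∀ s : ℂ, s ≠ 0 → (Matrix.of fun i j =>
      s * S.T (e i) (e j) (k 0) + S.T (e i) (e j) (∑ l, a l • k l)).det = 0 := by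
    intro s hs
    have h5 := h1 ![s, a 1, a 2] (by simpa using hs)
    rw [← h5]
    congr 1
    ext i j
    simp only [Matrix.of_apply, Fin.sum_univ_three, hb, Matrix.cons_val_zero, Matrix.cons_val_one,
      Matrix.cons_val, map_add, map_smul, smul_eq_mul, zero_mul, zero_add]
    ring
  have k1 := h4 1 one_ne_zero
  have k2 := h4 (-1) (by norm_num)
  have k3 := h4 2 (by norm_num)
  have k4 := h4 (-2) (by norm_num)
  rw [Matrix.det_fin_three] at k1 k2 k3 k4 ⊢
  simp only [Matrix.of_apply] at k1 k2 k3 k4 ⊢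
  linear_combination (4 / 6 : ℂ) * (k1 + k2) - (1 / 6 : ℂ) * (k3 + k4)

theorem thirteen [FiniteDimensional ℂ V] (hV : finrank ℂ V = 6) (hS : S.Smooth)
    (hno : ∀ v, ¬ S.Eckardt v) {P : Submodule ℂ V} (hP : Pl S P) (N : ℕ) (w : Fin N → V)
    (hw : ∀ i, w i ∉ P) (hij : ∀ i j, i ≠ j → w j ∉ P ⊔ span ℂ {w i})
    (hg : ∀ i, Good S P (w i)) : N ≤ 13 := by
  classical
  let b := finBasisOfFinrankEq ℂ P hP.1
  let e : Fin 3 → V := fun i => (b i : V)
  have heP : ∀ i, e i ∈ P := fun i => (b i).2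
  have he : span ℂ (Set.range e) = P := by
    have h1 : Set.range e = P.subtype '' Set.range b := by
      rw [← Set.range_comp]
      rfl
    rw [h1, ← Submodule.map_span, b.span_eq, Submodule.map_top, Submodule.range_subtype]
  obtain ⟨k, hk, hx⟩ := H697.K.row_K hV hP.1 w hw
  choose x hx using hx
  obtain ⟨hkP, hkk⟩ := H697.ML.row_M hV hP.1 k hk
  have hxi : Function.Injective x := by
    intro i j hij'
    by_contra hne
    apply hij i j hne
    rw [hx i, hij', ← hx j]
    exact mem_sup_right (mem_span_singleton_self _)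
  have hGood : ∀ y, G S e k y → Good S P (kk k y) := fun y hy =>
    H946.row_A2 hV hS hP e he (hkP y) hy
  have hG : ∀ y, Good S P (kk k y) → G S e k y := fun y hy =>
    H697.A1.row_A1 hV hS hP e heP (hkP y) hy
  have h20 : ∀ s : Finset (Fin 2 → ℂ), (∀ y ∈ s, G S e k y) → s.card ≤ 20 := by
    intro s hs
    refine H62.row_T hV hS hP s.card (fun i => kk k (s.equivFin.symm i).1) (fun i => hkP _) ?_ ?_
    · intro i j hne
      refine hkk _ _ ?_
      intro h
      exact hne (s.equivFin.symm.injective (Subtype.ext h))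
    · intro i
      exact hGood _ (hs _ (s.equivFin.symm i).2)
  have hline : ∀ l : MvPolynomial (Fin 2) ℂ, l ≠ 0 → l.totalDegree ≤ 1 →
      ∀ s : Finset (Fin 2 → ℂ), (∀ y ∈ s, G S e k y) → (∀ y ∈ s, eval y l = 0) →
        s.card ≤ 3 := by
    intro l hl hd s hs hsl
    by_contra hcon
    obtain ⟨t, hts, ht4⟩ := Finset.exists_subset_card_eq (show 4 ≤ s.card by omega)
    let y : Fin 4 → (Fin 2 → ℂ) := fun i => (t.equivFin.symm (Fin.cast ht4.symm i)).1
    have hyt : ∀ i, y i ∈ s := fun i => hts (t.equivFin.symm (Fin.cast ht4.symm i)).2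
    have hyi : Function.Injective y := by
      intro i j h
      have h1 := t.equivFin.symm.injective (Subtype.ext h)
      exact Fin.cast_injective _ h1
    obtain ⟨D, hD, hPD, h1, h2, h3⟩ := H697.ML.row_L hV hP.1 k hk l hl hd y hyi (fun i => hsl _ (hyt i))
    obtain ⟨v, hv⟩ := H389.row_C hV hS hP hD hPD (fun i => kk k (y i)) h1 h2 h3
      (fun i => hGood _ (hs _ (hyt i)))
    exact hno v hv
  obtain ⟨a, ha⟩ := H11.row_N hV hS hP e he k hk
  have h0 : Gam S e k ≠ 0 := Gam_ne a ha
  have h13 := le_13 (S := S) (e := e) (k := k) (fun f g hf hfg s hs => H11.row_B f g hf hfg s hs)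
    (fun f hf N => H847.row_I f hf N) h20 hline h0 (Finset.univ.image x) (by
      intro y hy
      obtain ⟨i, -, rfl⟩ := Finset.mem_image.mp hy
      exact hG _ ((hg i).congr (hx i)))
  rwa [Finset.card_image_of_injective _ hxi, Finset.card_univ, Fintype.card_fin] at h13

end Vale.Agent.P287.R2.H992
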