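import Vale.Agent.P287.R2.H992.Lines27
import Vale.Agent.P287.R2.H248.Eckardt

/-!
P287 (helper992): at most 27 planes of a smooth cubic fourfold pass through an Eckardt point; a
smooth cubic fourfold with an Eckardt point and at least 28 planes contains two disjoint planes.
-/

namespace Vale.Agent.P287.R2.H992

open Module Submodule
open Vale.Agent.P287.R2.H248

variable {V : Type*} [AddCommGroup V] [Module ℂ V] {S : Tri V}

/-- **At most 27 planes pass through an Eckardt point.** -/
theorem planes_through_le_27 [FiniteDimensional ℂ V] (hS : S.Smooth) (hV : finrank ℂ V = 6)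
    {p : V} (hE : S.Eckardt p) (s : Finset (Submodule ℂ V))
    (hs : ∀ P ∈ s, finrank ℂ P = 3 ∧ S.Iso P ∧ p ∈ P) : s.card ≤ 27 := by
  classical
  obtain ⟨hp0, hpp, -⟩ := id hE
  set H := LinearMap.ker (S.T p p) with hH
  have hpH : p ∈ H := hpp
  have hH5 : finrank ℂ H = 5 := by
    have h0 : S.T p p ≠ 0 := by
      intro h0
      apply hp0
      apply hS
      intro w
      rw [h0]
      rfl
    have h1 : finrank ℂ ↥H + 1 = finrank ℂ V :=
      Module.Dual.finrank_ker_add_one_of_ne_zero (f := S.T p p) h0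
    omega
  obtain ⟨C, hC⟩ := Submodule.exists_isCompl (span ℂ {p})
  have hsp : span ℂ {p} ≤ H := span_le.mpr (Set.singleton_subset_iff.mpr hpH)
  set W := C ⊓ H with hW
  have hWp : W ⊔ span ℂ {p} = H := by
    rw [hW, sup_comm, ← sup_inf_assoc_of_le _ hsp, hC.sup_eq_top, top_inf_eq]
  have hWd : Disjoint W (span ℂ {p}) := hC.symm.disjoint.mono_left inf_le_left
  have hW4 : finrank ℂ W = 4 := by
    have h1 := Submodule.finrank_sup_add_finrank_inf_eq W (span ℂ {p})
    rw [hWp, hWd.eq_bot, finrank_bot, finrank_span_singleton hp0, hH5] at h1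
    omega
  have hsm : (S.comap W.subtype).Smooth := Tri.base_smooth hS hE hWp hWd
  -- a plane through `p` is the join of `p` and its trace on `W`
  have hrec : ∀ P : Submodule ℂ V, S.Iso P → p ∈ P → span ℂ {p} ⊔ W ⊓ P = P := by
    intro P hP hpP
    have hPH : P ≤ H := fun v hv => hP.two hpP hv
    have h1 : span ℂ {p} ≤ P := span_le.mpr (Set.singleton_subset_iff.mpr hpP)
    rw [← sup_inf_assoc_of_le _ h1, sup_comm, hWp]
    exact inf_eq_right.mpr hPH
  have h27 : (s.image fun P => P.comap W.subtype).card ≤ 27 := by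
    refine lines_le_27 hW4 hsm _ ?_
    intro L hL
    obtain ⟨P, hPs, rfl⟩ := Finset.mem_image.mp hL
    obtain ⟨hP3, hPI, hpP⟩ := hs P hPs
    refine ⟨?_, fun u hu => hPI _ hu⟩
    have h1 : finrank ℂ ↥((P.comap W.subtype).map W.subtype) = finrank ℂ ↥(P.comap W.subtype) :=
      (LinearEquiv.finrank_eq ((P.comap W.subtype).equivMapOfInjective W.subtype
        (Submodule.injective_subtype W))).symm
    rw [Submodule.map_comap_subtype] at h1
    rw [← h1]
    have h2 := Submodule.finrank_sup_add_finrank_inf_eq (span ℂ {p}) (W ⊓ P)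
    have h3 : span ℂ {p} ⊓ (W ⊓ P) = ⊥ := (hWd.symm.mono_right inf_le_left).eq_bot
    rw [hrec P hPI hpP, h3, finrank_bot, finrank_span_singleton hp0, hP3] at h2
    omega
  rw [Finset.card_image_of_injOn] at h27
  · exact h27
  · intro P hPs Q hQs hPQ
    have h1 : (P.comap W.subtype).map W.subtype = (Q.comap W.subtype).map W.subtype :=
      congrArg (Submodule.map W.subtype) hPQ
    rw [Submodule.map_comap_subtype, Submodule.map_comap_subtype] at h1
    rw [← hrec P (hs P hPs).2.1 (hs P hPs).2.2, h1, hrec Q (hs Q hQs).2.1 (hs Q hQs).2.2]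

/-- **An Eckardt point and 28 planes: two disjoint planes.** -/
theorem exists_disjoint_of_eckardt_28 [FiniteDimensional ℂ V] (hS : S.Smooth)
    (hV : finrank ℂ V = 6) {p : V} (hE : S.Eckardt p) (s : Finset (Submodule ℂ V))
    (hs : ∀ P ∈ s, finrank ℂ P = 3 ∧ S.Iso P) (h28 : 28 ≤ s.card) :
    ∃ P ∈ s, p ∉ P ∧ ∃ Q : Submodule ℂ V, finrank ℂ Q = 3 ∧ S.Iso Q ∧ p ∈ Q ∧
      Disjoint P Q := by
  by_contra hcon
  have hall : ∀ P ∈ s, p ∈ P := by
    intro P hP
    by_contra hpP
    exact hcon ⟨P, hP, hpP, Tri.exists_disjoint_plane hS hV hE (hs P hP).1 (hs P hP).2 hpP⟩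
  have := planes_through_le_27 hS hV hE s fun P hP => ⟨(hs P hP).1, (hs P hP).2, hall P hP⟩
  omega

end Vale.Agent.P287.R2.H992
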